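import Mathlib

/-!
# Greedy form of the row-wise mirror descent lemma (P315)

Rows `i : ι`, edges `e : E`, a set `PP` of paths `ι → E`.  In every round `T` paths are chosen one
after the other, each one minimising `∑ i, (L i (p i) + H (count))`, where `H` is (a rounded form
of) the harmonic numbers.  The output of the round is the uniform law on the `T` chosen paths.
-/

namespace Vale.Agent.P315.H782

open Finset

noncomputable section

variable {ι E : Type*} [Fintype ι] [Fintype E] [DecidableEq E]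

/-- Number of the first `t` paths which use the edge `e` in row `i`. -/
def cnt (p : ℕ → ι → E) (t : ℕ) (i : ι) (e : E) : ℕ :=
  ∑ s ∈ range t, if p s i = e then 1 else 0

omit [Fintype ι] [Fintype E] in
theorem cnt_zero (p : ℕ → ι → E) (i : ι) (e : E) : cnt p 0 i e = 0 := by
  simp [cnt]

omit [Fintype ι] [Fintype E] in
theorem cnt_succ (p : ℕ → ι → E) (t : ℕ) (i : ι) (e : E) :
    cnt p (t + 1) i e = cnt p t i e + if p t i = e then 1 else 0 := by
  unfold cnt
  rw [Finset.sum_range_succ]

omit [Fintype ι] [Fintype E] in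
theorem cnt_mono (p : ℕ → ι → E) (i : ι) (e : E) : Monotone (fun t => cnt p t i e) := by
  refine monotone_nat_of_le_succ fun t => ?_
  show cnt p t i e ≤ cnt p (t + 1) i e
  rw [cnt_succ]
  exact Nat.le_add_right _ _

omit [Fintype ι] [Fintype E] in
theorem cnt_le (p : ℕ → ι → E) (t : ℕ) (i : ι) (e : E) : cnt p t i e ≤ t := by
  induction t with
  | zero => simp [cnt]
  | succ t ih =>
    rw [cnt_succ]
    split_ifs <;> omega

omit [Fintype ι] in
/-- Summation of a row function against the counts. -/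
theorem sum_cnt (p : ℕ → ι → E) (A : E → ℝ) (T : ℕ) (i : ι) :
    ∑ e, (cnt p T i e : ℝ) * A e = ∑ t ∈ range T, A (p t i) := by
  induction T with
  | zero => simp [cnt]
  | succ T ih =>
    rw [Finset.sum_range_succ, ← ih]
    have : ∀ e, (cnt p (T + 1) i e : ℝ) * A e
        = (cnt p T i e : ℝ) * A e + (if p T i = e then A e else 0) := by
      intro e
      rw [cnt_succ]
      push_cast
      split_ifs <;> ring
    rw [Finset.sum_congr rfl fun e _ => this e, Finset.sum_add_distrib, Finset.sum_ite_eq]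
    simp

omit [Fintype ι] in
theorem sum_cnt_one (p : ℕ → ι → E) (T : ℕ) (i : ι) : ∑ e, (cnt p T i e : ℝ) = T := by
  have := sum_cnt p (fun _ => (1 : ℝ)) T i
  simpa using this

omit [Fintype ι] in
/-- The marginal costs add up to the primitive of `H`. -/
theorem sum_H (H : ℕ → ℝ) (p : ℕ → ι → E) (T : ℕ) (i : ι) :
    ∑ t ∈ range T, H (cnt p t i (p t i)) = ∑ e, ∑ j ∈ range (cnt p T i e), H j := by
  induction T with
  | zero => simp [cnt]
  | succ T ih =>
    rw [Finset.sum_range_succ, ih]
    have : ∀ e, ∑ j ∈ range (cnt p (T + 1) i e), H j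
        = ∑ j ∈ range (cnt p T i e), H j + (if p T i = e then H (cnt p T i e) else 0) := by
      intro e
      rw [cnt_succ]
      split_ifs with h
      · rw [Finset.sum_range_succ]
      · simp
    rw [Finset.sum_congr rfl fun e _ => this e, Finset.sum_add_distrib, Finset.sum_ite_eq]
    simp

/-! ### Gibbs inequality -/

omit [DecidableEq E] in
theorem gibbs (x q : E → ℝ) (hx : ∀ e, 0 ≤ x e) (hx1 : ∑ e, x e = 1) (hq : ∀ e, 0 < q e) :
    ∑ e, x e * Real.log (q e) ≤ ∑ e, x e * Real.log (x e) + Real.log (∑ e, q e) := by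
  have hne : Nonempty E := by
    by_contra h
    rw [not_nonempty_iff] at h
    simp at hx1
  have hQ : 0 < ∑ e, q e := Finset.sum_pos (fun e _ => hq e) Finset.univ_nonempty
  set Q := ∑ e, q e with hQdef
  have key : ∀ e, x e * Real.log (q e) - x e * Real.log (x e) - x e * Real.log Q
      ≤ q e / Q - x e := by
    intro e
    rcases (hx e).eq_or_lt with h0 | h0
    · rw [← h0]
      simp only [zero_mul, sub_zero]
      exact (div_pos (hq e) hQ).le
    · have h1 : Real.log (q e / (Q * x e)) ≤ q e / (Q * x e) - 1 :=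
        Real.log_le_sub_one_of_pos (div_pos (hq e) (mul_pos hQ h0))
      rw [Real.log_div (hq e).ne' (mul_pos hQ h0).ne', Real.log_mul hQ.ne' h0.ne'] at h1
      have h2 := mul_le_mul_of_nonneg_left h1 h0.le
      have h3 : x e * (q e / (Q * x e) - 1) = q e / Q - x e := by
        field_simp
      rw [h3] at h2
      linarith
  have hs := Finset.sum_le_sum fun e (_ : e ∈ (Finset.univ : Finset E)) => key e
  rw [Finset.sum_sub_distrib, Finset.sum_sub_distrib, Finset.sum_sub_distrib,
    ← Finset.sum_mul, hx1, ← Finset.sum_div, ← hQdef, div_self hQ.ne'] at hs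
  linarith

/-! ### The function `H` -/

/-- The properties of (rounded) harmonic numbers which are used. -/
structure HF (H : ℕ → ℝ) (T : ℕ) (g ζ : ℝ) : Prop where
  mono : Monotone H
  up : ∀ c : ℕ, H c ≤ Real.log (c + 1) + g
  low : ∀ c : ℕ, c ≤ T →
    (c : ℝ) * Real.log c - (1 - g + ζ) * c ≤ ∑ j ∈ range c, H j

/-- Cost of the path `q` at time `t` of a round. -/
def aval (H : ℕ → ℝ) (L : ι → E → ℝ) (p : ℕ → ι → E) (t : ℕ) (q : ι → E) : ℝ :=
  ∑ i, (L i (q i) + H (cnt p t i (q i)))

/-- The greedy choice. -/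
structure Greedy (H : ℕ → ℝ) (L : ι → E → ℝ) (PP : Set (ι → E)) (T : ℕ)
    (p : ℕ → ι → E) : Prop where
  mem : ∀ t, t < T → p t ∈ PP
  min : ∀ t, t < T → ∀ q ∈ PP, aval H L p t (p t) ≤ aval H L p t q

/-- Uniform law on the first `T` paths, as row marginals. -/
def xx (p : ℕ → ι → E) (T : ℕ) (i : ι) (e : E) : ℝ := (cnt p T i e : ℝ) / T

/-- Value of a cost table at a row law. -/
def val (A : ι → E → ℝ) (x : ι → E → ℝ) : ℝ := ∑ i, ∑ e, x i e * A i e

/-- Negative entropy. -/
def ent (x : ι → E → ℝ) : ℝ := ∑ i, ∑ e, x i e * Real.log (x i e)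

omit [Fintype ι] [Fintype E] in
theorem xx_nonneg (p : ℕ → ι → E) (T : ℕ) (i : ι) (e : E) : 0 ≤ xx p T i e := by
  unfold xx; positivity

omit [Fintype ι] in
theorem xx_sum (p : ℕ → ι → E) {T : ℕ} (hT : 0 < T) (i : ι) : ∑ e, xx p T i e = 1 := by
  unfold xx
  rw [← Finset.sum_div, sum_cnt_one]
  have : (T : ℝ) ≠ 0 := by positivity
  exact div_self this

theorem val_xx (A : ι → E → ℝ) (p : ℕ → ι → E) {T : ℕ} (hT : 0 < T) :
    (T : ℝ) * val A (xx p T) = ∑ t ∈ range T, ∑ i, A i (p t i) := by
  have hT' : (T : ℝ) ≠ 0 := by positivity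
  rw [Finset.sum_comm]
  unfold val xx
  rw [Finset.mul_sum]
  refine Finset.sum_congr rfl fun i _ => ?_
  rw [← sum_cnt p (A i) T i, Finset.mul_sum]
  refine Finset.sum_congr rfl fun e _ => ?_
  field_simp

omit [Fintype E] in
theorem aval_mono {H : ℕ → ℝ} (hH : Monotone H) (L : ι → E → ℝ) (p : ℕ → ι → E)
    (q : ι → E) {s t : ℕ} (hst : s ≤ t) : aval H L p s q ≤ aval H L p t q := by
  unfold aval
  refine Finset.sum_le_sum fun i _ => ?_
  have := hH (cnt_mono p i (q i) hst)
  simp only at this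
  linarith

/-- (U): upper bound for the greedy value, comparison with the final law. -/
theorem greedy_upper {H : ℕ → ℝ} {T : ℕ} {g ζ : ℝ} (hH : HF H T g ζ) {L : ι → E → ℝ}
    {PP : Set (ι → E)} {p : ℕ → ι → E} (hp : Greedy H L PP T p) (hT : 0 < T) {t : ℕ}
    (ht : t < T) :
    aval H L p t (p t) ≤ val L (xx p T) + ent (xx p T)
      + Fintype.card ι * (g + Real.log (t + Fintype.card E)) := by
  have hT' : (0 : ℝ) < T := by positivity
  have h1 : (T : ℝ) * aval H L p t (p t)
      ≤ (T : ℝ) * val (fun i e => L i e + H (cnt p t i e)) (xx p T) := by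
    rw [val_xx _ p hT]
    calc (T : ℝ) * aval H L p t (p t) = ∑ _r ∈ range T, aval H L p t (p t) := by simp
      _ ≤ ∑ r ∈ range T, aval H L p t (p r) :=
          Finset.sum_le_sum fun r hr => hp.min t ht _ (hp.mem r (Finset.mem_range.mp hr))
      _ = _ := rfl
  have h2 : aval H L p t (p t) ≤ val (fun i e => L i e + H (cnt p t i e)) (xx p T) :=
    le_of_mul_le_mul_left h1 hT'
  refine h2.trans ?_
  unfold val ent
  rw [← Finset.sum_add_distrib]
  have hcard : (Fintype.card ι : ℝ) * (g + Real.log (t + Fintype.card E))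
      = ∑ _i : ι, (g + Real.log (t + Fintype.card E)) := by
    rw [Finset.sum_const, Finset.card_univ, nsmul_eq_mul]
  rw [hcard, ← Finset.sum_add_distrib]
  refine Finset.sum_le_sum fun i _ => ?_
  have hg := gibbs (fun e => xx p T i e) (fun e => (cnt p t i e : ℝ) + 1)
    (fun e => xx_nonneg p T i e) (xx_sum p hT i) (fun e => by positivity)
  have hsum : ∑ e, ((cnt p t i e : ℝ) + 1) = t + Fintype.card E := by
    rw [Finset.sum_add_distrib, sum_cnt_one]; simp
  rw [hsum] at hg
  have h3 : ∑ e, xx p T i e * (L i e + H (cnt p t i e))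
      ≤ ∑ e, xx p T i e * (L i e + (Real.log (cnt p t i e + 1) + g)) := by
    refine Finset.sum_le_sum fun e _ => ?_
    exact mul_le_mul_of_nonneg_left (by linarith [hH.up (cnt p t i e)]) (xx_nonneg p T i e)
  have h4 : ∑ e, xx p T i e * (L i e + (Real.log (cnt p t i e + 1) + g))
      = ∑ e, xx p T i e * L i e + ∑ e, xx p T i e * Real.log (cnt p t i e + 1) + g := by
    have : ∀ e, xx p T i e * (L i e + (Real.log (cnt p t i e + 1) + g))
        = xx p T i e * L i e + xx p T i e * Real.log (cnt p t i e + 1) + xx p T i e * g := by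
      intro e; ring
    rw [Finset.sum_congr rfl fun e _ => this e, Finset.sum_add_distrib, Finset.sum_add_distrib,
      ← Finset.sum_mul, xx_sum p hT i, one_mul]
  linarith

/-- (L): lower bound for the sum of the greedy values. -/
theorem greedy_lower {H : ℕ → ℝ} {T : ℕ} {g ζ : ℝ} (hH : HF H T g ζ) (L : ι → E → ℝ)
    (p : ℕ → ι → E) (hT : 0 < T) :
    (T : ℝ) * (val L (xx p T) + ent (xx p T))
      + Fintype.card ι * (T * Real.log T - (1 - g + ζ) * T)
      ≤ ∑ t ∈ range T, aval H L p t (p t) := by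
  have hT' : (0 : ℝ) < T := by positivity
  have e1 : ∑ t ∈ range T, aval H L p t (p t)
      = ∑ t ∈ range T, ∑ i, L i (p t i) + ∑ i, ∑ e, ∑ j ∈ range (cnt p T i e), H j := by
    unfold aval
    rw [Finset.sum_congr rfl fun t _ => Finset.sum_add_distrib, Finset.sum_add_distrib]
    congr 1
    rw [Finset.sum_comm]
    exact Finset.sum_congr rfl fun i _ => sum_H H p T i
  rw [e1, ← val_xx L p hT, mul_add]
  have key : (T : ℝ) * ent (xx p T) + Fintype.card ι * (T * Real.log T - (1 - g + ζ) * T)
      ≤ ∑ i, ∑ e, ∑ j ∈ range (cnt p T i e), H j := by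
    unfold ent
    have hcard : (Fintype.card ι : ℝ) * (T * Real.log T - (1 - g + ζ) * T)
        = ∑ _i : ι, (T * Real.log T - (1 - g + ζ) * T) := by
      rw [Finset.sum_const, Finset.card_univ, nsmul_eq_mul]
    rw [hcard, Finset.mul_sum, ← Finset.sum_add_distrib]
    refine Finset.sum_le_sum fun i _ => ?_
    have h1 : ∀ e, (T : ℝ) * (xx p T i e * Real.log (xx p T i e))
        + (cnt p T i e : ℝ) * Real.log T - (1 - g + ζ) * cnt p T i e
        ≤ ∑ j ∈ range (cnt p T i e), H j := by
      intro e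
      refine le_trans (le_of_eq ?_) (hH.low (cnt p T i e) (cnt_le p T i e))
      rcases Nat.eq_zero_or_pos (cnt p T i e) with h0 | h0
      · simp [xx, h0]
      · have hc : (0 : ℝ) < cnt p T i e := by exact_mod_cast h0
        unfold xx
        rw [Real.log_div hc.ne' hT'.ne']
        field_simp
        ring
    have h2 := Finset.sum_le_sum fun e (_ : e ∈ (Finset.univ : Finset E)) => h1 e
    rw [Finset.sum_sub_distrib, Finset.sum_add_distrib, ← Finset.mul_sum, ← Finset.sum_mul,
      ← Finset.mul_sum, sum_cnt_one] at h2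
    linarith
  linarith

/-- Stirling type upper bound. -/
theorem sum_log_le (m : ℕ) (hm : 0 < m) (n : ℕ) :
    ∑ t ∈ range n, Real.log ((t : ℝ) + m)
      ≤ ((n : ℝ) + m) * Real.log ((n : ℝ) + m) - n - m * Real.log m := by
  induction n with
  | zero => simp
  | succ n ih =>
    rw [Finset.sum_range_succ]
    have hy : (0 : ℝ) < (n : ℝ) + m := by positivity
    have hy1 : (0 : ℝ) < (n : ℝ) + m + 1 := by positivity
    have h1 : 1 ≤ ((n : ℝ) + m + 1) * (Real.log ((n : ℝ) + m + 1) - Real.log ((n : ℝ) + m)) := by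
      have h2 : Real.log (((n : ℝ) + m) / ((n : ℝ) + m + 1))
          ≤ ((n : ℝ) + m) / ((n : ℝ) + m + 1) - 1 :=
        Real.log_le_sub_one_of_pos (div_pos hy hy1)
      rw [Real.log_div hy.ne' hy1.ne'] at h2
      have h3 : ((n : ℝ) + m) / ((n : ℝ) + m + 1) - 1 = - (1 / ((n : ℝ) + m + 1)) := by
        field_simp
        ring
      rw [h3] at h2
      have h4 : 1 / ((n : ℝ) + m + 1) ≤ Real.log ((n : ℝ) + m + 1) - Real.log ((n : ℝ) + m) := by
        linarith
      calc (1 : ℝ) = ((n : ℝ) + m + 1) * (1 / ((n : ℝ) + m + 1)) := by field_simp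
        _ ≤ _ := mul_le_mul_of_nonneg_left h4 hy1.le
    have e2 : ((n + 1 : ℕ) : ℝ) + m = (n : ℝ) + m + 1 := by push_cast; ring
    rw [e2]
    push_cast
    nlinarith [h1, ih]

/-- The error of the dual bound. -/
def err (m T s : ℕ) (ζ : ℝ) : ℝ :=
  (m * (1 + Real.log (T / m)) + ((s : ℝ) - m) ^ 2 / T + ζ * T) / s

/-- (D): after `T` steps every path is expensive. -/
theorem greedy_dual {H : ℕ → ℝ} {T : ℕ} {g ζ : ℝ} (hH : HF H T g ζ) {L : ι → E → ℝ}
    {PP : Set (ι → E)} {p : ℕ → ι → E} (hp : Greedy H L PP T p) (hT : 0 < T)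
    {s : ℕ} (hs : 0 < s) (hsT : s ≤ T) (hm : 0 < Fintype.card E) {q : ι → E} (hq : q ∈ PP) :
    val L (xx p T) + ent (xx p T)
      + Fintype.card ι * (g + Real.log T - err (Fintype.card E) T s ζ) ≤ aval H L p T q := by
  have hT' : (0 : ℝ) < T := by positivity
  have hs' : (0 : ℝ) < s := by positivity
  set m := Fintype.card E with hmdef
  have hm' : (0 : ℝ) < m := by exact_mod_cast hm
  set F := val L (xx p T) + ent (xx p T) with hF
  set M : ℝ := (Fintype.card ι : ℝ) with hM
  have hM0 : 0 ≤ M := by positivity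
  have hlow := greedy_lower hH L p hT
  rw [← hF, ← hM] at hlow
  have hup : ∀ t, t < T → aval H L p t (p t) ≤ F + M * (g + Real.log (t + m)) :=
    fun t ht => greedy_upper hH hp hT ht
  clear_value F M
  -- split the sum
  have hsplit : ∑ t ∈ range T, aval H L p t (p t)
      = ∑ t ∈ range (T - s), aval H L p t (p t) + ∑ t ∈ Ico (T - s) T, aval H L p t (p t) := by
    rw [Finset.sum_range_add_sum_Ico _ (Nat.sub_le T s)]
  have h1 : ∑ t ∈ range (T - s), aval H L p t (p t)
      ≤ ((T - s : ℕ) : ℝ) * (F + M * g)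
        + M * (((T - s : ℕ) : ℝ) + m) * Real.log (((T - s : ℕ) : ℝ) + m)
        - M * ((T - s : ℕ) : ℝ) - M * (m * Real.log m) := by
    have h1a : ∑ t ∈ range (T - s), aval H L p t (p t)
        ≤ ∑ t ∈ range (T - s), (F + M * (g + Real.log (t + m))) :=
      Finset.sum_le_sum fun t ht => hup t (by
        have := Finset.mem_range.mp ht
        omega)
    have h1b : ∑ t ∈ range (T - s), (F + M * (g + Real.log (t + m)))
        = ((T - s : ℕ) : ℝ) * (F + M * g) + M * ∑ t ∈ range (T - s), Real.log ((t : ℝ) + m) := by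
      rw [Finset.sum_add_distrib, ← Finset.mul_sum, Finset.sum_add_distrib, Finset.sum_const,
        Finset.sum_const, Finset.card_range, nsmul_eq_mul, nsmul_eq_mul]
      ring
    have h1c := mul_le_mul_of_nonneg_left (sum_log_le m hm (T - s)) hM0
    rw [h1b] at h1a
    linarith
  have h2 : ∑ t ∈ Ico (T - s) T, aval H L p t (p t) ≤ s * aval H L p T q := by
    have h2a : ∑ t ∈ Ico (T - s) T, aval H L p t (p t)
        ≤ ∑ _t ∈ Ico (T - s) T, aval H L p T q := by
      refine Finset.sum_le_sum fun t ht => ?_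
      rw [Finset.mem_Ico] at ht
      exact (hp.min t ht.2 q hq).trans (aval_mono hH.mono L p q ht.2.le)
    rw [Finset.sum_const, Nat.card_Ico, nsmul_eq_mul] at h2a
    have : T - (T - s) = s := by omega
    rwa [this] at h2a
  have hn : ((T - s : ℕ) : ℝ) = (T : ℝ) - s := by
    rw [Nat.cast_sub hsT]
  rw [hn] at h1
  -- logarithm estimate
  have hnm : (0 : ℝ) < (T : ℝ) - s + m := by
    have : (s : ℝ) ≤ T := by exact_mod_cast hsT
    linarith
  have h3 : Real.log ((T : ℝ) - s + m) ≤ Real.log T + (m - s) / T := by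
    have h3a : Real.log (((T : ℝ) - s + m) / T) ≤ ((T : ℝ) - s + m) / T - 1 :=
      Real.log_le_sub_one_of_pos (div_pos hnm hT')
    rw [Real.log_div hnm.ne' hT'.ne'] at h3a
    have h3b : ((T : ℝ) - s + m) / T - 1 = (m - s) / T := by
      field_simp
      ring
    rw [h3b] at h3a
    linarith
  have h4 : ((T : ℝ) - s + m) * Real.log ((T : ℝ) - s + m)
      ≤ ((T : ℝ) - s + m) * Real.log T + (m - s) + ((s : ℝ) - m) ^ 2 / T := by
    have h4a := mul_le_mul_of_nonneg_left h3 hnm.le
    have h4b : ((T : ℝ) - s + m) * (Real.log T + (m - s) / T)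
        = ((T : ℝ) - s + m) * Real.log T + (m - s) + ((s : ℝ) - m) ^ 2 / T := by
      field_simp
      ring
    rwa [h4b] at h4a
  have h5 := mul_le_mul_of_nonneg_left h4 hM0
  have hlogd : Real.log ((T : ℝ) / m) = Real.log T - Real.log m :=
    Real.log_div hT'.ne' hm'.ne'
  -- final combination
  have h6 : s * (F + M * (g + Real.log T))
      - M * (m * (1 + Real.log (T / m)) + ((s : ℝ) - m) ^ 2 / T + ζ * T)
      ≤ s * aval H L p T q := by
    rw [hlogd]
    rw [hsplit] at hlow
    nlinarith [hlow, h1, h2, h5]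
  have h7 : s * (F + M * (g + Real.log T - err m T s ζ))
      = s * (F + M * (g + Real.log T))
      - M * (m * (1 + Real.log (T / m)) + ((s : ℝ) - m) ^ 2 / T + ζ * T) := by
    unfold err
    field_simp
    ring
  rw [← h7] at h6
  exact le_of_mul_le_mul_left h6 hs'

/-! ### Flows = convex combinations of paths -/

/-- Row marginals of a single path. -/
def ind (q : ι → E) : ι → E → ℝ := fun i e => if q i = e then 1 else 0

/-- The flows: convex combinations of paths of `PP`. -/
def Flow (PP : Set (ι → E)) : Set (ι → E → ℝ) := convexHull ℝ (ind '' PP)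

theorem val_ind (A : ι → E → ℝ) (q : ι → E) : val A (ind q) = ∑ i, A i (q i) := by
  unfold val ind
  refine Finset.sum_congr rfl fun i _ => ?_
  simp

theorem val_ge {PP : Set (ι → E)} {A : ι → E → ℝ} {a : ℝ} (h : ∀ q ∈ PP, a ≤ ∑ i, A i (q i))
    {x : ι → E → ℝ} (hx : x ∈ Flow PP) : a ≤ val A x := by
  have hconv : Convex ℝ {x : ι → E → ℝ | a ≤ val A x} := by
    have hl : IsLinearMap ℝ (fun x : ι → E → ℝ => val A x) := by
      constructor
      · intro x y
        simp only [val, Pi.add_apply, add_mul, Finset.sum_add_distrib]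
      · intro c x
        simp only [val, Pi.smul_apply, smul_eq_mul, Finset.mul_sum, mul_assoc]
    exact convex_halfSpace_ge hl a
  refine convexHull_min ?_ hconv hx
  rintro _ ⟨q, hq, rfl⟩
  show a ≤ val A (ind q)
  rw [val_ind]
  exact h q hq

omit [Fintype ι] in
theorem flow_stoch {PP : Set (ι → E)} {x : ι → E → ℝ} (hx : x ∈ Flow PP) :
    (∀ i e, 0 ≤ x i e) ∧ ∀ i, ∑ e, x i e = 1 := by
  have hconv : Convex ℝ {x : ι → E → ℝ | (∀ i e, 0 ≤ x i e) ∧ ∀ i, ∑ e, x i e = 1} := by
    intro x hx y hy a b ha hb hab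
    refine ⟨fun i e => ?_, fun i => ?_⟩
    · simp only [Pi.add_apply, Pi.smul_apply, smul_eq_mul]
      exact add_nonneg (mul_nonneg ha (hx.1 i e)) (mul_nonneg hb (hy.1 i e))
    · simp only [Pi.add_apply, Pi.smul_apply, smul_eq_mul, Finset.sum_add_distrib,
        ← Finset.mul_sum, hx.2 i, hy.2 i, mul_one, hab]
  refine convexHull_min ?_ hconv hx
  rintro _ ⟨q, hq, rfl⟩
  refine ⟨fun i e => ?_, fun i => ?_⟩
  · unfold ind
    split_ifs <;> norm_num
  · simp [ind]

omit [Fintype ι] [Fintype E] in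
theorem xx_mem_flow {PP : Set (ι → E)} {p : ℕ → ι → E} {T : ℕ} (hT : 0 < T)
    (hp : ∀ t, t < T → p t ∈ PP) : xx p T ∈ Flow PP := by
  have hT' : (T : ℝ) ≠ 0 := by positivity
  have e : xx p T = ∑ t ∈ range T, (1 / (T : ℝ)) • ind (p t) := by
    funext i e
    simp only [Finset.sum_apply, Pi.smul_apply, smul_eq_mul]
    unfold xx cnt ind
    push_cast
    rw [Finset.sum_div]
    refine Finset.sum_congr rfl fun t _ => ?_
    split_ifs <;> simp
  rw [e]
  refine (convex_convexHull ℝ _).sum_mem (fun t _ => by positivity) ?_ ?_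
  · simp
    field_simp
  · intro t ht
    exact subset_convexHull ℝ _ ⟨p t, hp t (Finset.mem_range.mp ht), rfl⟩

/-- Greedy value against an arbitrary flow. -/
theorem greedy_upper_flow {H : ℕ → ℝ} {T : ℕ} {g ζ : ℝ} (hH : HF H T g ζ) {L : ι → E → ℝ}
    {PP : Set (ι → E)} {p : ℕ → ι → E} (hp : Greedy H L PP T p) {x : ι → E → ℝ}
    (hx : x ∈ Flow PP) {t : ℕ} (ht : t < T) :
    aval H L p t (p t) ≤ val L x + ent x
      + Fintype.card ι * (g + Real.log (t + Fintype.card E)) := by
  have h2 : aval H L p t (p t) ≤ val (fun i e => L i e + H (cnt p t i e)) x :=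
    val_ge (fun q hq => hp.min t ht q hq) hx
  obtain ⟨hx0, hx1⟩ := flow_stoch hx
  refine h2.trans ?_
  unfold val ent
  rw [← Finset.sum_add_distrib]
  have hcard : (Fintype.card ι : ℝ) * (g + Real.log (t + Fintype.card E))
      = ∑ _i : ι, (g + Real.log (t + Fintype.card E)) := by
    rw [Finset.sum_const, Finset.card_univ, nsmul_eq_mul]
  rw [hcard, ← Finset.sum_add_distrib]
  refine Finset.sum_le_sum fun i _ => ?_
  have hg := gibbs (fun e => x i e) (fun e => (cnt p t i e : ℝ) + 1)
    (fun e => hx0 i e) (hx1 i) (fun e => by positivity)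
  have hsum : ∑ e, ((cnt p t i e : ℝ) + 1) = t + Fintype.card E := by
    rw [Finset.sum_add_distrib, sum_cnt_one]; simp
  rw [hsum] at hg
  have h3 : ∑ e, x i e * (L i e + H (cnt p t i e))
      ≤ ∑ e, x i e * (L i e + (Real.log (cnt p t i e + 1) + g)) := by
    refine Finset.sum_le_sum fun e _ => ?_
    exact mul_le_mul_of_nonneg_left (by linarith [hH.up (cnt p t i e)]) (hx0 i e)
  have h4 : ∑ e, x i e * (L i e + (Real.log (cnt p t i e + 1) + g))
      = ∑ e, x i e * L i e + ∑ e, x i e * Real.log (cnt p t i e + 1) + g := by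
    have : ∀ e, x i e * (L i e + (Real.log (cnt p t i e + 1) + g))
        = x i e * L i e + x i e * Real.log (cnt p t i e + 1) + x i e * g := by
      intro e; ring
    rw [Finset.sum_congr rfl fun e _ => this e, Finset.sum_add_distrib, Finset.sum_add_distrib,
      ← Finset.sum_mul, hx1 i, one_mul]
  linarith

/-- Precision of the greedy minimiser. -/
def err1 (m T : ℕ) (ζ : ℝ) : ℝ := m / T * (1 + Real.log ((T + m) / m)) + ζ

/-- **The greedy loop is an approximate entropic minimiser.** -/
theorem greedy_regret {H : ℕ → ℝ} {T : ℕ} {g ζ : ℝ} (hH : HF H T g ζ) {L : ι → E → ℝ}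
    {PP : Set (ι → E)} {p : ℕ → ι → E} (hp : Greedy H L PP T p) (hT : 0 < T)
    (hm : 0 < Fintype.card E) {x : ι → E → ℝ} (hx : x ∈ Flow PP) :
    val L (xx p T) + ent (xx p T)
      ≤ val L x + ent x + Fintype.card ι * err1 (Fintype.card E) T ζ := by
  have hT' : (0 : ℝ) < T := by positivity
  set m := Fintype.card E with hmdef
  have hm' : (0 : ℝ) < m := by exact_mod_cast hm
  set M : ℝ := (Fintype.card ι : ℝ) with hM
  have hM0 : 0 ≤ M := by positivity
  have hlow := greedy_lower hH L p hT
  rw [← hM] at hlow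
  have hup : ∀ t, t < T → aval H L p t (p t)
      ≤ (val L x + ent x) + M * (g + Real.log (t + m)) :=
    fun t ht => greedy_upper_flow hH hp hx ht
  generalize val L x + ent x = G at hup ⊢
  generalize val L (xx p T) + ent (xx p T) = F at hlow ⊢
  clear_value M m
  have h1 : ∑ t ∈ range T, aval H L p t (p t)
      ≤ (T : ℝ) * (G + M * g)
        + M * (((T : ℝ) + m) * Real.log ((T : ℝ) + m) - T - m * Real.log m) := by
    have h1a : ∑ t ∈ range T, aval H L p t (p t)
        ≤ ∑ t ∈ range T, (G + M * (g + Real.log (t + m))) :=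
      Finset.sum_le_sum fun t ht => hup t (Finset.mem_range.mp ht)
    have h1b : ∑ t ∈ range T, (G + M * (g + Real.log (t + m)))
        = (T : ℝ) * (G + M * g) + M * ∑ t ∈ range T, Real.log ((t : ℝ) + m) := by
      rw [Finset.sum_add_distrib, ← Finset.mul_sum, Finset.sum_add_distrib, Finset.sum_const,
        Finset.sum_const, Finset.card_range, nsmul_eq_mul, nsmul_eq_mul]
      ring
    have h1c := mul_le_mul_of_nonneg_left (sum_log_le m hm T) hM0
    rw [h1b] at h1a
    linarith
  have hTm : (0 : ℝ) < (T : ℝ) + m := by positivity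
  have h3 : (T : ℝ) * Real.log ((T : ℝ) + m) ≤ T * Real.log T + m := by
    have h3a : Real.log (((T : ℝ) + m) / T) ≤ ((T : ℝ) + m) / T - 1 :=
      Real.log_le_sub_one_of_pos (div_pos hTm hT')
    rw [Real.log_div hTm.ne' hT'.ne'] at h3a
    have h3b := mul_le_mul_of_nonneg_left h3a hT'.le
    have h3c : (T : ℝ) * (((T : ℝ) + m) / T - 1) = m := by
      field_simp
      ring
    rw [h3c] at h3b
    linarith
  have hlogd : Real.log (((T : ℝ) + m) / m) = Real.log ((T : ℝ) + m) - Real.log m :=
    Real.log_div hTm.ne' hm'.ne'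
  have h5 := mul_le_mul_of_nonneg_left h3 hM0
  have h6 : (T : ℝ) * F ≤ T * (G + M * err1 m T ζ) := by
    have e7 : (T : ℝ) * (G + M * err1 m T ζ)
        = T * G + M * (m * (1 + (Real.log ((T : ℝ) + m) - Real.log m)) + ζ * T) := by
      unfold err1
      rw [hlogd]
      field_simp
    rw [e7]
    nlinarith [hlow, h1, h5]
  exact le_of_mul_le_mul_left h6 hT'

/-! ### Rounded harmonic numbers -/

/-- Prefix sums of `⌊S / (j + 1)⌋`: the integer table used by the program. -/
def harmN (S : ℕ) (c : ℕ) : ℕ := ∑ j ∈ range c, S / (j + 1)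

/-- The corresponding real function. -/
def harm (S : ℕ) (c : ℕ) : ℝ := (harmN S c : ℝ) / S

theorem harm_up {S : ℕ} (hS : 0 < S) (c : ℕ) :
    harm S c ≤ Real.log (c + 1) + Real.eulerMascheroniConstant := by
  have hS' : (0 : ℝ) < S := by positivity
  have h1 : harm S c ≤ (harmonic c : ℝ) := by
    unfold harm harmN harmonic
    push_cast
    rw [Finset.sum_div]
    refine Finset.sum_le_sum fun j _ => ?_
    rw [div_le_iff₀ hS']
    have h2 : ((S / (j + 1) : ℕ) : ℝ) ≤ (S : ℝ) / ((j + 1 : ℕ) : ℝ) := Nat.cast_div_le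
    refine h2.trans (le_of_eq ?_)
    push_cast
    field_simp
  have h3 := Real.eulerMascheroniSeq_lt_eulerMascheroniConstant c
  unfold Real.eulerMascheroniSeq at h3
  linarith

theorem harmonic_sum (c : ℕ) :
    ∑ j ∈ range c, (harmonic j : ℝ) = c * (harmonic c : ℝ) - c := by
  induction c with
  | zero => simp
  | succ c ih =>
    rw [Finset.sum_range_succ, ih, harmonic_succ]
    push_cast
    field_simp
    ring

theorem harm_low {S : ℕ} (hS : 0 < S) {T : ℕ} {c : ℕ} (hc : c ≤ T) :
    (c : ℝ) * Real.log c - (1 - Real.eulerMascheroniConstant + T / S) * c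
      ≤ ∑ j ∈ range c, harm S j := by
  have hS' : (0 : ℝ) < S := by positivity
  have h1 : ∀ j : ℕ, (harmonic j : ℝ) - j / S ≤ harm S j := by
    intro j
    unfold harm harmN harmonic
    push_cast
    rw [Finset.sum_div]
    have h0 : (j : ℝ) / S = ∑ _k ∈ range j, (1 : ℝ) / S := by
      rw [Finset.sum_const, Finset.card_range, nsmul_eq_mul]
      ring
    rw [h0, ← Finset.sum_sub_distrib]
    refine Finset.sum_le_sum fun k _ => ?_
    have h2 : S < (S / (k + 1) + 1) * (k + 1) := by
      have := Nat.lt_div_mul_add (a := S) (b := k + 1) (Nat.succ_pos k)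
      nlinarith
    have h3 : (S : ℝ) < (((S / (k + 1) : ℕ) : ℝ) + 1) * ((k : ℝ) + 1) := by
      exact_mod_cast h2
    have hk : (0 : ℝ) < (k : ℝ) + 1 := by positivity
    rw [← sub_nonneg]
    have h4 : ((S / (k + 1) : ℕ) : ℝ) / S - (((k : ℝ) + 1)⁻¹ - 1 / S)
        = ((((S / (k + 1) : ℕ) : ℝ) + 1) * ((k : ℝ) + 1) - S) / (S * ((k : ℝ) + 1)) := by
      field_simp
      ring
    rw [h4]
    exact div_nonneg (by linarith) (by positivity)
  have h5 : ∑ j ∈ range c, ((harmonic j : ℝ) - j / S) ≤ ∑ j ∈ range c, harm S j :=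
    Finset.sum_le_sum fun j _ => h1 j
  refine le_trans ?_ h5
  rw [Finset.sum_sub_distrib, harmonic_sum]
  have h6 : ∑ j ∈ range c, (j : ℝ) / S ≤ T / S * c := by
    calc ∑ j ∈ range c, (j : ℝ) / S ≤ ∑ _j ∈ range c, (T : ℝ) / S := by
          refine Finset.sum_le_sum fun j hj => ?_
          have : (j : ℝ) ≤ T := by
            exact_mod_cast (Finset.mem_range.mp hj).le.trans hc
          gcongr
      _ = T / S * c := by
          rw [Finset.sum_const, Finset.card_range, nsmul_eq_mul]
          ring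
  rcases Nat.eq_zero_or_pos c with h0 | h0
  · subst h0
    simp
  · have hcpos : (0 : ℝ) < c := by exact_mod_cast h0
    have h7 := Real.eulerMascheroniConstant_lt_eulerMascheroniSeq' c
    unfold Real.eulerMascheroniSeq' at h7
    rw [if_neg h0.ne'] at h7
    have h8 : (c : ℝ) * (Real.eulerMascheroniConstant + Real.log c) ≤ c * (harmonic c : ℝ) :=
      mul_le_mul_of_nonneg_left (by linarith) hcpos.le
    linarith

/-- The rounded harmonic numbers have the required properties. -/
theorem harm_HF {S : ℕ} (hS : 0 < S) (T : ℕ) :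
    HF (harm S) T Real.eulerMascheroniConstant (T / S) where
  mono := by
    refine monotone_nat_of_le_succ fun c => ?_
    unfold harm harmN
    rw [Finset.sum_range_succ]
    have hS' : (0 : ℝ) < S := by positivity
    gcongr
    exact Nat.le_add_right _ _
  up := harm_up hS
  low := fun _ hc => harm_low hS hc

end

end Vale.Agent.P315.H782
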