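import Vale.Agent.P315.H330.MD
import Vale.Agent.P315.H782.Greedy

/-!
# (MD) for the greedy loop: no minimiser is computed, integer tables only

`H330.md_regret` applied to the uniform laws produced by the greedy loop of `H782.Greedy`.
-/

namespace Vale.Agent.P315.H782

open Finset

noncomputable section

variable {ι E : Type*} [Fintype ι] [Fintype E] [DecidableEq E]

omit [DecidableEq E] in
theorem pair_eq_val (A x : ι → E → ℝ) : H330.pair A x = val A x := by
  unfold H330.pair val
  exact Finset.sum_congr rfl fun i _ => Finset.sum_congr rfl fun e _ => mul_comm _ _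

omit [DecidableEq E] in
theorem ent_eq (x : ι → E → ℝ) : H330.ent x = ent x := rfl

/-- One of the stored paths is at most as expensive as the law. -/
theorem exists_lane (A : ι → E → ℝ) (p : ℕ → ι → E) {T : ℕ} (hT : 0 < T) :
    ∃ t < T, ∑ i, A i (p t i) ≤ val A (xx p T) := by
  by_contra h
  push Not at h
  have h1 := val_xx A p hT
  have h2 : ∑ t ∈ range T, val A (xx p T) < ∑ t ∈ range T, ∑ i, A i (p t i) :=
    Finset.sum_lt_sum_of_nonempty (Finset.nonempty_range_iff.mpr hT.ne')
      fun t ht => h t (Finset.mem_range.mp ht)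
  rw [Finset.sum_const, Finset.card_range, nsmul_eq_mul, ← h1] at h2
  exact lt_irrefl _ h2

omit [Fintype E] in
/-- Integer costs: the procedure minimises `∑ i, (Li i (q i) + Q * harmN S (count))`. -/
theorem greedy_of_int {S Q : ℕ} (hS : 0 < S) (hQ : 0 < Q) {Li : ι → E → ℤ}
    {PP : Set (ι → E)} {T : ℕ} {p : ℕ → ι → E} (hmem : ∀ t, t < T → p t ∈ PP)
    (hmin : ∀ t, t < T → ∀ q ∈ PP,
      ∑ i, (Li i (p t i) + (Q * harmN S (cnt p t i (p t i)) : ℕ))
        ≤ ∑ i, (Li i (q i) + (Q * harmN S (cnt p t i (q i)) : ℕ))) :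
    Greedy (harm S) (fun i e => (Li i e : ℝ) / (S * Q)) PP T p where
  mem := hmem
  min := by
    intro t ht q hq
    have hS' : (0 : ℝ) < S := by positivity
    have hQ' : (0 : ℝ) < Q := by positivity
    have h := hmin t ht q hq
    have key : ∀ r : ι → E, aval (harm S) (fun i e => (Li i e : ℝ) / (S * Q)) p t r
        = ((∑ i, (Li i (r i) + (Q * harmN S (cnt p t i (r i)) : ℕ)) : ℤ) : ℝ) / (S * Q) := by
      intro r
      unfold aval harm
      push_cast
      rw [Finset.sum_div]
      refine Finset.sum_congr rfl fun i _ => ?_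
      field_simp
    rw [key, key]
    have h' : ((∑ i, (Li i (p t i) + (Q * harmN S (cnt p t i (p t i)) : ℕ)) : ℤ) : ℝ)
        ≤ ((∑ i, (Li i (q i) + (Q * harmN S (cnt p t i (q i)) : ℕ)) : ℤ) : ℝ) := by
      exact_mod_cast h
    gcongr

/-- **(MD) for the greedy loop.** In round `k` the paths `p k 0, …, p k (T-1)` are chosen
greedily for the costs `H330.Ls D cap k` (which depend on `D 0, …, D k` only), and
`xx (p k) T` is the uniform law on them. -/
theorem md_greedy [Nonempty E] {PP : Set (ι → E)} {D : ℕ → ι → E → ℝ}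
    (hD : ∀ k i e, D (k + 1) i e ≤ D k i e) {cap : ℝ} (hcap : 0 < cap)
    {H : ℕ → ℝ} {T : ℕ} {g ζ : ℝ} (hH : HF H T g ζ) (hT : 0 < T) {p : ℕ → ℕ → ι → E}
    (hp : ∀ k, Greedy H (H330.Ls D cap k) PP T (p k)) {q : ι → E} (hq : q ∈ PP)
    {th : ℝ} (hth0 : 0 < th) (hth1 : th ≤ 1 / 2) (N : ℕ) :
    ∑ k ∈ range N, ∑ i, H330.wt D cap k i (q i)
      ≤ 2 * ∑ k ∈ range N, (∑ i, D k i (q i) - val (D (k + 1)) (xx (p k) T))
      + cap * (Fintype.card ι * Real.log (Fintype.card E))
      + N * (cap * (Fintype.card ι * (4 * th + err1 (Fintype.card E) T ζ / th))) := by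
  have hm : 0 < Fintype.card E := Fintype.card_pos
  have h := H330.md_regret (X := Flow PP) (fun x hx => flow_stoch hx)
    (fun x hx y hy a ha0 ha1 => by
      have := (convex_convexHull ℝ (ind '' PP)) hx hy (sub_nonneg.mpr ha1) ha0 (by ring)
      exact this)
    hD hcap (xh := fun k => xx (p k) T) (fun k => xx_mem_flow hT (hp k).mem)
    (tau := Fintype.card ι * err1 (Fintype.card E) T ζ)
    (fun k y hy => by
      rw [pair_eq_val, pair_eq_val]
      exact greedy_regret hH (hp k) hT hm hy)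
    (P := ind q) (subset_convexHull ℝ _ ⟨q, hq, rfl⟩) hth0 hth1 N
  simp only [pair_eq_val, val_ind] at h
  refine h.trans (le_of_eq ?_)
  congr 1
  field_simp

/-- The same with rounded harmonic numbers (`S` = size of the integer table). -/
theorem md_harm [Nonempty E] {PP : Set (ι → E)} {D : ℕ → ι → E → ℝ}
    (hD : ∀ k i e, D (k + 1) i e ≤ D k i e) {cap : ℝ} (hcap : 0 < cap)
    {S T : ℕ} (hS : 0 < S) (hT : 0 < T) {p : ℕ → ℕ → ι → E}
    (hp : ∀ k, Greedy (harm S) (H330.Ls D cap k) PP T (p k)) {q : ι → E} (hq : q ∈ PP)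
    {th : ℝ} (hth0 : 0 < th) (hth1 : th ≤ 1 / 2) (N : ℕ) :
    ∑ k ∈ range N, ∑ i, H330.wt D cap k i (q i)
      ≤ 2 * ∑ k ∈ range N, (∑ i, D k i (q i) - val (D (k + 1)) (xx (p k) T))
      + cap * (Fintype.card ι * Real.log (Fintype.card E))
      + N * (cap * (Fintype.card ι * (4 * th + err1 (Fintype.card E) T (T / S) / th))) :=
  md_greedy hD hcap (harm_HF hS T) hT hp hq hth0 hth1 N

end

end Vale.Agent.P315.H782
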