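import Vale.Agent.P315.H782.Greedy

/-!
# Integer realisation of the learning machine (P315, part B)

State: natural-number tables `y i e` with `y0 ≤ y i e` and row sums at most `Q` (the real weights
are `y i e / Q`).  Costs are natural numbers.  One round calls the greedy loop of `H782.Greedy`
with an integer cost table and then updates `y` by one integer division.  `phi` is the potential
`∑ i, log (Q / y i (P i))`; `int_round` is the one-round inequality.
-/

namespace Vale.Agent.P315.H782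

open Finset

noncomputable section

/-! ### Rounded harmonic numbers against logarithms -/

theorem harm_succ (S c : ℕ) : harm S (c + 1) = harm S c + ((S / (c + 1) : ℕ) : ℝ) / S := by
  unfold harm harmN
  rw [Finset.sum_range_succ]
  push_cast
  rw [add_div]

theorem harm_sub_le {S : ℕ} (hS : 0 < S) {a b : ℕ} (ha : 0 < a) (hab : a ≤ b) :
    harm S b - harm S a ≤ Real.log ((b : ℝ) / a) := by
  have hS' : (0 : ℝ) < S := by positivity
  have ha' : (0 : ℝ) < a := by exact_mod_cast ha
  induction b, hab using Nat.le_induction with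
  | base => simp [div_self ha'.ne']
  | succ b hab ih =>
    have hb : (0 : ℝ) < b := by exact_mod_cast lt_of_lt_of_le ha hab
    have hb1 : (0 : ℝ) < (b : ℝ) + 1 := by positivity
    rw [harm_succ]
    rw [Real.log_div hb.ne' ha'.ne'] at ih
    push_cast
    rw [Real.log_div hb1.ne' ha'.ne']
    have h1 : ((S / (b + 1) : ℕ) : ℝ) / S ≤ 1 / ((b : ℝ) + 1) := by
      rw [div_le_iff₀ hS']
      have h2 : ((S / (b + 1) : ℕ) : ℝ) ≤ (S : ℝ) / ((b + 1 : ℕ) : ℝ) := Nat.cast_div_le
      refine h2.trans (le_of_eq ?_)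
      push_cast
      field_simp
    have h2 : 1 / ((b : ℝ) + 1) ≤ Real.log ((b : ℝ) + 1) - Real.log b := by
      have h3 : Real.log ((b : ℝ) / ((b : ℝ) + 1)) ≤ (b : ℝ) / ((b : ℝ) + 1) - 1 :=
        Real.log_le_sub_one_of_pos (div_pos hb hb1)
      rw [Real.log_div hb.ne' hb1.ne'] at h3
      have h4 : (b : ℝ) / ((b : ℝ) + 1) - 1 = - (1 / ((b : ℝ) + 1)) := by
        field_simp
        ring
      rw [h4] at h3
      linarith
    linarith

theorem le_harm_sub {S : ℕ} (hS : 0 < S) {a b : ℕ} (ha : 0 < a) (hab : a ≤ b) :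
    Real.log ((b : ℝ) / a) - 1 / a - b / S ≤ harm S b - harm S a := by
  have hS' : (0 : ℝ) < S := by positivity
  have ha' : (0 : ℝ) < a := by exact_mod_cast ha
  have hb' : (0 : ℝ) < b := by exact_mod_cast lt_of_lt_of_le ha hab
  have hmono : Monotone (fun c : ℕ => harm S c + (c : ℝ) / S - Real.log ((c : ℝ) + 1)) := by
    refine monotone_nat_of_le_succ fun c => ?_
    show harm S c + (c : ℝ) / S - Real.log ((c : ℝ) + 1)
      ≤ harm S (c + 1) + ((c + 1 : ℕ) : ℝ) / S - Real.log (((c + 1 : ℕ) : ℝ) + 1)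
    rw [harm_succ]
    have hc1 : (0 : ℝ) < (c : ℝ) + 1 := by positivity
    have hc2 : (0 : ℝ) < (c : ℝ) + 1 + 1 := by positivity
    have h2 : S < (S / (c + 1) + 1) * (c + 1) := by
      have := Nat.lt_div_mul_add (a := S) (b := c + 1) (Nat.succ_pos c)
      nlinarith
    have h3 : (S : ℝ) < (((S / (c + 1) : ℕ) : ℝ) + 1) * ((c : ℝ) + 1) := by
      exact_mod_cast h2
    have h4 : 1 / ((c : ℝ) + 1) ≤ ((S / (c + 1) : ℕ) : ℝ) / S + 1 / S := by
      rw [← add_div, div_le_div_iff₀ hc1 hS']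
      linarith
    have h5 : Real.log ((c : ℝ) + 1 + 1) - Real.log ((c : ℝ) + 1) ≤ 1 / ((c : ℝ) + 1) := by
      have h6 : Real.log (((c : ℝ) + 1 + 1) / ((c : ℝ) + 1))
          ≤ ((c : ℝ) + 1 + 1) / ((c : ℝ) + 1) - 1 :=
        Real.log_le_sub_one_of_pos (div_pos hc2 hc1)
      rw [Real.log_div hc2.ne' hc1.ne'] at h6
      refine h6.trans (le_of_eq ?_)
      field_simp
      ring
    push_cast
    rw [add_div]
    linarith
  have h := hmono hab
  simp only at h
  rw [Real.log_div hb'.ne' ha'.ne']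
  have h1 : Real.log (b : ℝ) ≤ Real.log ((b : ℝ) + 1) := Real.log_le_log hb' (by linarith)
  have h2 : Real.log ((a : ℝ) + 1) ≤ Real.log a + 1 / a := by
    have h6 : Real.log (((a : ℝ) + 1) / a) ≤ ((a : ℝ) + 1) / a - 1 :=
      Real.log_le_sub_one_of_pos (div_pos (by positivity) ha')
    rw [Real.log_div (by positivity) ha'.ne'] at h6
    have h7 : ((a : ℝ) + 1) / a - 1 = 1 / a := by
      field_simp
      ring
    linarith
  have h3 : (0 : ℝ) ≤ (a : ℝ) / S := by positivity
  linarith

theorem harmN_mono (S : ℕ) : Monotone (harmN S) := by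
  refine monotone_nat_of_le_succ fun c => ?_
  unfold harmN
  rw [Finset.sum_range_succ]
  exact Nat.le_add_right _ _

/-! ### The tables -/

variable {ι E : Type*} [Fintype ι] [Fintype E]

/-- Admissible state: floor `y0`, row sums at most `Q`. -/
structure Inv (y0 Q : ℕ) (y : ι → E → ℕ) : Prop where
  low : ∀ i e, y0 ≤ y i e
  sum : ∀ i, ∑ e, y i e ≤ Q

/-- The potential of a path. -/
def phi (Q : ℕ) (y : ι → E → ℕ) (P : ι → E) : ℝ := ∑ i, Real.log ((Q : ℝ) / y i (P i))

omit [Fintype ι] in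
theorem Inv.le {y0 Q : ℕ} {y : ι → E → ℕ} (h : Inv y0 Q y) (i : ι) (e : E) : y i e ≤ Q :=
  (Finset.single_le_sum (f := fun e => y i e) (fun _ _ => Nat.zero_le _)
    (Finset.mem_univ e)).trans (h.sum i)

theorem phi_nonneg {y0 Q : ℕ} {y : ι → E → ℕ} (h : Inv y0 Q y) (h0 : 0 < y0) (P : ι → E) :
    0 ≤ phi Q y P := by
  refine Finset.sum_nonneg fun i _ => Real.log_nonneg ?_
  have h1 : (0 : ℝ) < y i (P i) := by
    exact_mod_cast lt_of_lt_of_le h0 (h.low i (P i))
  rw [one_le_div h1]
  exact_mod_cast h.le i (P i)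

/-- Integer cost table of a round (unit `1 / (S * cap)`). -/
def LN (S Q cap : ℕ) (y : ι → E → ℕ) (D : ι → E → ℕ) (i : ι) (e : E) : ℕ :=
  S * D i e + cap * (harmN S Q - harmN S (y i e))

/-- Clipped decrease. -/
def wN (cap : ℕ) (D D' : ι → E → ℕ) (i : ι) (e : E) : ℕ := min (D i e - D' i e) cap

/-- The new state. -/
def upd (Q cap : ℕ) (c : ι → E → ℕ) (w : ι → E → ℕ) (i : ι) (e : E) : ℕ :=
  Q * ((c i e + 1) * (cap + w i e)) / ∑ e', (c i e' + 1) * (cap + w i e')

/-- The mixture at the end of an active block, `ζ = 1 / z`. -/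
def mix (z : ℕ) (y y1 : ι → E → ℕ) (i : ι) (e : E) : ℕ := ((z - 1) * y1 i e + y i e) / z

/-! ### The solver inequality for the true costs -/

theorem solv [DecidableEq E] {S Q cap y0 : ℕ} (hS : 0 < S) (hcap : 0 < cap) (h0 : 0 < y0)
    {y : ι → E → ℕ} (hy : Inv y0 Q y) {D : ι → E → ℕ} {PP : Set (ι → E)} {T : ℕ} (hT : 0 < T)
    {p : ℕ → ι → E} (hmem : ∀ t, t < T → p t ∈ PP)
    (hmin : ∀ t, t < T → ∀ q ∈ PP,
      ∑ i, (LN S Q cap y D i (p t i) + cap * harmN S (cnt p t i (p t i)))
        ≤ ∑ i, (LN S Q cap y D i (q i) + cap * harmN S (cnt p t i (q i))))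
    {s : ℕ} (hs : 0 < s) (hsT : s ≤ T) (hm : 0 < Fintype.card E) {P : ι → E} (hP : P ∈ PP) :
    ∑ i, Real.log (((T : ℝ) + Fintype.card E) / ((cnt p T i (P i) : ℝ) + 1))
      ≤ phi Q y P + 1 / cap * (∑ i, (D i (P i) : ℝ) - val (fun i e => (D i e : ℝ)) (xx p T))
        + Fintype.card ι * (err (Fintype.card E) T s (T / S) + Fintype.card E / T
          + 1 / y0 + Q / S) := by
  have hS' : (0 : ℝ) < S := by positivity
  have hc' : (0 : ℝ) < cap := by positivity
  have hT' : (0 : ℝ) < T := by positivity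
  have h0' : (0 : ℝ) < y0 := by exact_mod_cast h0
  have hm' : (0 : ℝ) < Fintype.card E := by exact_mod_cast hm
  have hy0 : ∀ i e, 0 < y i e := fun i e => lt_of_lt_of_le h0 (hy.low i e)
  have hyR : ∀ i e, (0 : ℝ) < y i e := fun i e => by exact_mod_cast hy0 i e
  have hyQ : ∀ i e, y i e ≤ Q := hy.le
  -- the real cost function
  set L : ι → E → ℝ := fun i e => (LN S Q cap y D i e : ℝ) / (S * cap) with hL
  have hLeq : ∀ i e, L i e = 1 / cap * D i e + (harm S Q - harm S (y i e)) := by
    intro i e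
    rw [hL]
    simp only [LN]
    rw [Nat.cast_add, Nat.cast_mul, Nat.cast_mul,
      Nat.cast_sub (harmN_mono S (hyQ i e))]
    unfold harm
    field_simp
  have hG : Greedy (harm S) L PP T p := by
    refine ⟨hmem, fun t ht q hq => ?_⟩
    have h := hmin t ht q hq
    have key : ∀ r : ι → E, aval (harm S) L p t r
        = ((∑ i, (LN S Q cap y D i (r i) + cap * harmN S (cnt p t i (r i))) : ℕ) : ℝ)
          / (S * cap) := by
      intro r
      unfold aval harm
      push_cast
      rw [Finset.sum_div]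
      refine Finset.sum_congr rfl fun i _ => ?_
      rw [hL]
      field_simp
    rw [key, key]
    have h' : ((∑ i, (LN S Q cap y D i (p t i) + cap * harmN S (cnt p t i (p t i))) : ℕ) : ℝ)
        ≤ ((∑ i, (LN S Q cap y D i (q i) + cap * harmN S (cnt p t i (q i))) : ℕ) : ℝ) := by
      exact_mod_cast h
    gcongr
  have hdual := greedy_dual (harm_HF hS T) hG hT hs hsT hm hP
  -- upper bound for `aval`
  have hup : aval (harm S) L p T P ≤ 1 / cap * ∑ i, (D i (P i) : ℝ) + phi Q y P
      + ∑ i, (Real.log ((cnt p T i (P i) : ℝ) + 1) + Real.eulerMascheroniConstant) := by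
    unfold aval phi
    rw [Finset.mul_sum, ← Finset.sum_add_distrib, ← Finset.sum_add_distrib]
    refine Finset.sum_le_sum fun i _ => ?_
    rw [hLeq]
    have h1 := harm_sub_le hS (hy0 i (P i)) (hyQ i (P i))
    have h2 := harm_up hS (cnt p T i (P i))
    linarith
  -- lower bound for the value of the law
  have hlow : 1 / cap * val (fun i e => (D i e : ℝ)) (xx p T)
      - Fintype.card ι * (1 / y0 + Q / S) ≤ val L (xx p T) + ent (xx p T) := by
    unfold val ent
    have hcard : (Fintype.card ι : ℝ) * (1 / y0 + Q / S) = ∑ _i : ι, (1 / (y0 : ℝ) + Q / S) := by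
      rw [Finset.sum_const, Finset.card_univ, nsmul_eq_mul]
    rw [hcard, Finset.mul_sum, ← Finset.sum_sub_distrib, ← Finset.sum_add_distrib]
    refine Finset.sum_le_sum fun i _ => ?_
    have hx0 : ∀ e, 0 ≤ xx p T i e := fun e => xx_nonneg p T i e
    have hx1 := xx_sum p hT i
    have hQ0 : (0 : ℝ) < Q := by
      obtain ⟨e⟩ : Nonempty E := Fintype.card_pos_iff.mp hm
      exact lt_of_lt_of_le (hyR i e) (by exact_mod_cast hyQ i e)
    have hg := gibbs (fun e => xx p T i e) (fun e => (y i e : ℝ) / Q) hx0 hx1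
      (fun e => div_pos (hyR i e) hQ0)
    have hlog : Real.log (∑ e, (y i e : ℝ) / Q) ≤ 0 := by
      refine Real.log_nonpos (Finset.sum_nonneg fun e _ => (div_pos (hyR i e) hQ0).le) ?_
      rw [← Finset.sum_div, div_le_one hQ0]
      exact_mod_cast hy.sum i
    have hterm : ∀ e, xx p T i e * (1 / cap * D i e) + xx p T i e * (1 / y0 + Q / S) * (-1)
        ≤ xx p T i e * L i e + xx p T i e * Real.log ((y i e : ℝ) / Q) := by
      intro e
      rw [hLeq]
      have h1 := le_harm_sub hS (hy0 i e) (hyQ i e)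
      have h2 : Real.log ((Q : ℝ) / y i e) = - Real.log ((y i e : ℝ) / Q) := by
        rw [← Real.log_inv, inv_div]
      rw [h2] at h1
      have h3 : (1 : ℝ) / y i e ≤ 1 / y0 := by
        apply one_div_le_one_div_of_le h0'
        exact_mod_cast hy.low i e
      have h4 := hx0 e
      nlinarith
    have hsum := Finset.sum_le_sum fun e (_ : e ∈ (Finset.univ : Finset E)) => hterm e
    rw [Finset.sum_add_distrib, Finset.sum_add_distrib, ← Finset.sum_mul, ← Finset.sum_mul,
      hx1, one_mul] at hsum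
    have e1 : ∑ e, xx p T i e * (1 / cap * (D i e : ℝ))
        = 1 / cap * ∑ e, xx p T i e * (D i e : ℝ) := by
      rw [Finset.mul_sum]
      exact Finset.sum_congr rfl fun e _ => by ring
    rw [e1] at hsum
    linarith
  have hlogTm : Real.log ((T : ℝ) + Fintype.card E) ≤ Real.log T + Fintype.card E / T := by
    have h6 : Real.log (((T : ℝ) + Fintype.card E) / T) ≤ ((T : ℝ) + Fintype.card E) / T - 1 :=
      Real.log_le_sub_one_of_pos (div_pos (by positivity) hT')
    rw [Real.log_div (by positivity) hT'.ne'] at h6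
    have h7 : ((T : ℝ) + Fintype.card E) / T - 1 = Fintype.card E / T := by
      field_simp
      ring
    linarith
  have hfin : ∑ i, Real.log (((T : ℝ) + Fintype.card E) / ((cnt p T i (P i) : ℝ) + 1))
      = Fintype.card ι * Real.log ((T : ℝ) + Fintype.card E)
        - ∑ i, Real.log ((cnt p T i (P i) : ℝ) + 1) := by
    have : ∀ i, Real.log (((T : ℝ) + Fintype.card E) / ((cnt p T i (P i) : ℝ) + 1))
        = Real.log ((T : ℝ) + Fintype.card E) - Real.log ((cnt p T i (P i) : ℝ) + 1) := by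
      intro i
      rw [Real.log_div (by positivity) (by positivity)]
    rw [Finset.sum_congr rfl fun i _ => this i, Finset.sum_sub_distrib, Finset.sum_const,
      Finset.card_univ, nsmul_eq_mul]
  rw [hfin]
  have hsum2 : ∑ i, (Real.log ((cnt p T i (P i) : ℝ) + 1) + Real.eulerMascheroniConstant)
      = ∑ i, Real.log ((cnt p T i (P i) : ℝ) + 1)
        + Fintype.card ι * Real.eulerMascheroniConstant := by
    rw [Finset.sum_add_distrib, Finset.sum_const, Finset.card_univ, nsmul_eq_mul]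
  rw [hsum2] at hup
  have hM : (0 : ℝ) ≤ Fintype.card ι := by positivity
  have h8 := mul_le_mul_of_nonneg_left hlogTm hM
  have h9 := hlow
  have h10 := hdual
  have e11 : (1 : ℝ) / cap * (∑ i, (D i (P i) : ℝ) - val (fun i e => (D i e : ℝ)) (xx p T))
      = 1 / cap * ∑ i, (D i (P i) : ℝ) - 1 / cap * val (fun i e => (D i e : ℝ)) (xx p T) := by
    ring
  rw [e11]
  nlinarith [h8, h9, h10, hup]

/-! ### The update -/

omit [Fintype ι] [Fintype E] in
theorem wN_le_cap (cap : ℕ) (D D' : ι → E → ℕ) (i : ι) (e : E) : wN cap D D' i e ≤ cap :=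
  min_le_right _ _

section upd

variable {Q cap : ℕ} {c w : ι → E → ℕ} {T : ℕ}

omit [Fintype ι] in
theorem den_pos (hcap : 0 < cap) (hm : 0 < Fintype.card E) (i : ι) :
    0 < ∑ e', (c i e' + 1) * (cap + w i e') := by
  have : Nonempty E := Fintype.card_pos_iff.mp hm
  refine Finset.sum_pos (fun e _ => ?_) Finset.univ_nonempty
  positivity

omit [Fintype ι] in
theorem den_le (hw : ∀ i e, w i e ≤ cap) (hc : ∀ i, ∑ e, c i e = T) (i : ι) :
    ∑ e', (c i e' + 1) * (cap + w i e') ≤ 2 * cap * (T + Fintype.card E) := by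
  calc ∑ e', (c i e' + 1) * (cap + w i e')
      ≤ ∑ e', (c i e' + 1) * (2 * cap) :=
        Finset.sum_le_sum fun e _ => Nat.mul_le_mul_left _ (by have := hw i e; omega)
    _ = 2 * cap * (T + Fintype.card E) := by
        rw [← Finset.sum_mul, Finset.sum_add_distrib, hc i]
        simp
        ring

omit [Fintype ι] in
theorem upd_low (hcap : 0 < cap) (hm : 0 < Fintype.card E) (hw : ∀ i e, w i e ≤ cap)
    (hc : ∀ i, ∑ e, c i e = T) {y0 : ℕ} (hQ : y0 * (2 * (T + Fintype.card E)) ≤ Q) (i : ι)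
    (e : E) : y0 ≤ upd Q cap c w i e := by
  unfold upd
  rw [Nat.le_div_iff_mul_le (den_pos hcap hm i)]
  calc y0 * ∑ e', (c i e' + 1) * (cap + w i e')
      ≤ y0 * (2 * cap * (T + Fintype.card E)) := Nat.mul_le_mul_left _ (den_le hw hc i)
    _ = y0 * (2 * (T + Fintype.card E)) * cap := by ring
    _ ≤ Q * cap := Nat.mul_le_mul_right _ hQ
    _ ≤ Q * ((c i e + 1) * (cap + w i e)) := by
        refine Nat.mul_le_mul_left _ ?_
        nlinarith [Nat.zero_le (c i e * (cap + w i e)), Nat.zero_le (w i e)]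

omit [Fintype ι] in
theorem upd_sum (hcap : 0 < cap) (hm : 0 < Fintype.card E) (i : ι) :
    ∑ e, upd Q cap c w i e ≤ Q := by
  have hA := den_pos (c := c) (w := w) hcap hm i
  set A := ∑ e', (c i e' + 1) * (cap + w i e') with hAdef
  have h : (∑ e, upd Q cap c w i e) * A ≤ Q * A := by
    rw [Finset.sum_mul]
    calc ∑ e, upd Q cap c w i e * A
        ≤ ∑ e, Q * ((c i e + 1) * (cap + w i e)) :=
          Finset.sum_le_sum fun e _ => Nat.div_mul_le_self _ _
      _ = Q * A := by rw [← Finset.mul_sum]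
  exact Nat.le_of_mul_le_mul_right h hA

omit [Fintype ι] in
theorem upd_inv (hcap : 0 < cap) (hm : 0 < Fintype.card E) (hw : ∀ i e, w i e ≤ cap)
    (hc : ∀ i, ∑ e, c i e = T) {y0 : ℕ} (hQ : y0 * (2 * (T + Fintype.card E)) ≤ Q) :
    Inv y0 Q (upd Q cap c w) :=
  ⟨upd_low hcap hm hw hc hQ, upd_sum hcap hm⟩

/-- Rounding down costs at most `1 / y0` in the logarithm. -/
theorem log_round {Q u y0 : ℕ} {r : ℝ} (hr : 0 < r) (h0 : 0 < y0) (hu : y0 ≤ u)
    (hru : r ≤ (u : ℝ) + 1) (hQ : 0 < Q) :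
    Real.log ((Q : ℝ) / u) ≤ Real.log ((Q : ℝ) / r) + 1 / y0 := by
  have hu0 : (0 : ℝ) < u := by exact_mod_cast lt_of_lt_of_le h0 hu
  have h0' : (0 : ℝ) < y0 := by exact_mod_cast h0
  have hQ' : (0 : ℝ) < Q := by exact_mod_cast hQ
  rw [Real.log_div hQ'.ne' hu0.ne', Real.log_div hQ'.ne' hr.ne']
  have h1 : Real.log r ≤ Real.log ((u : ℝ) + 1) := Real.log_le_log hr hru
  have h2 : Real.log ((u : ℝ) + 1) ≤ Real.log u + 1 / u := by
    have h6 : Real.log (((u : ℝ) + 1) / u) ≤ ((u : ℝ) + 1) / u - 1 :=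
      Real.log_le_sub_one_of_pos (div_pos (by positivity) hu0)
    rw [Real.log_div (by positivity) hu0.ne'] at h6
    have h7 : ((u : ℝ) + 1) / u - 1 = 1 / u := by
      field_simp
      ring
    linarith
  have h3 : (1 : ℝ) / u ≤ 1 / y0 := by
    apply one_div_le_one_div_of_le h0'
    exact_mod_cast hu
  linarith

theorem le_log_one_add {t : ℝ} (h0 : 0 ≤ t) (h1 : t ≤ 1) :
    2 / 3 * t ≤ Real.log (1 + t) := by
  have h := Real.le_log_one_add_of_nonneg h0
  have h2 : 2 / 3 * t ≤ 2 * t / (t + 2) := by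
    rw [le_div_iff₀ (by linarith)]
    nlinarith
  linarith

theorem phi_upd (hcap : 0 < cap) (hm : 0 < Fintype.card E) (hQ0 : 0 < Q) (hT : 0 < T)
    (hw : ∀ i e, w i e ≤ cap)
    (hc : ∀ i, ∑ e, c i e = T) {y0 : ℕ} (h0 : 0 < y0)
    (hQ : y0 * (2 * (T + Fintype.card E)) ≤ Q) (P : ι → E) :
    phi Q (upd Q cap c w) P
      ≤ ∑ i, Real.log (((T : ℝ) + Fintype.card E) / ((c i (P i) : ℝ) + 1))
        + 1 / cap * (∑ i, ∑ e, (c i e : ℝ) / T * w i e)
        - 2 / 3 * (1 / cap * ∑ i, (w i (P i) : ℝ))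
        + Fintype.card ι * (Fintype.card E / T + 1 / y0) := by
  have hT' : (0 : ℝ) < T := by exact_mod_cast hT
  have hc' : (0 : ℝ) < cap := by exact_mod_cast hcap
  have hQ' : (0 : ℝ) < Q := by exact_mod_cast hQ0
  have hm' : (0 : ℝ) < Fintype.card E := by exact_mod_cast hm
  have hcard : (Fintype.card ι : ℝ) * (Fintype.card E / T + 1 / y0)
      = ∑ _i : ι, ((Fintype.card E : ℝ) / T + 1 / y0) := by
    rw [Finset.sum_const, Finset.card_univ, nsmul_eq_mul]
  unfold phi
  rw [hcard, Finset.mul_sum, Finset.mul_sum, Finset.mul_sum, ← Finset.sum_add_distrib,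
    ← Finset.sum_sub_distrib, ← Finset.sum_add_distrib]
  refine Finset.sum_le_sum fun i _ => ?_
  have hA := den_pos (c := c) (w := w) hcap hm i
  have hudef : upd Q cap c w i (P i) = Q * ((c i (P i) + 1) * (cap + w i (P i)))
      / ∑ e', (c i e' + 1) * (cap + w i e') := rfl
  have hAR : ((∑ e', (c i e' + 1) * (cap + w i e') : ℕ) : ℝ)
      = ∑ e', ((c i e' : ℝ) + 1) * (cap + w i e') := by
    push_cast
    rfl
  set A := ∑ e', (c i e' + 1) * (cap + w i e') with hAdef
  have hA' : (0 : ℝ) < (A : ℝ) := by exact_mod_cast hA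
  set a : ℝ := ((c i (P i) : ℝ) + 1) * (cap + w i (P i)) with hadef
  have ha : 0 < a := by positivity
  have hr : (0 : ℝ) < Q * a / A := by positivity
  have hru : (Q : ℝ) * a / A ≤ (upd Q cap c w i (P i) : ℝ) + 1 := by
    rw [hudef, div_le_iff₀ hA']
    have h2 := Nat.lt_div_mul_add (a := Q * ((c i (P i) + 1) * (cap + w i (P i)))) hA
    have h3 : ((Q * ((c i (P i) + 1) * (cap + w i (P i))) : ℕ) : ℝ)
        < ((Q * ((c i (P i) + 1) * (cap + w i (P i))) / A * A + A : ℕ) : ℝ) := by
      exact_mod_cast h2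
    push_cast at h3
    rw [hadef]
    nlinarith
  have h1 := log_round hr h0 (upd_low hcap hm hw hc hQ i (P i)) hru hQ0
  refine h1.trans ?_
  have e1 : (Q : ℝ) / (Q * a / A)
      = ((A : ℝ) / (cap * (T + Fintype.card E)))
        * ((((T : ℝ) + Fintype.card E) / ((c i (P i) : ℝ) + 1))
          / (1 + (w i (P i) : ℝ) / cap)) := by
    rw [hadef]
    field_simp
  rw [e1, Real.log_mul (by positivity) (by positivity),
    Real.log_div (x := (((T : ℝ) + Fintype.card E) / ((c i (P i) : ℝ) + 1)))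
      (by positivity) (by positivity)]
  have h2 : 2 / 3 * ((w i (P i) : ℝ) / cap) ≤ Real.log (1 + (w i (P i) : ℝ) / cap) := by
    refine le_log_one_add (by positivity) ?_
    rw [div_le_one hc']
    exact_mod_cast hw i (P i)
  have h3 : Real.log ((A : ℝ) / (cap * (T + Fintype.card E)))
      ≤ 1 / cap * (∑ e, (c i e : ℝ) / T * w i e) + Fintype.card E / T := by
    have h4 : Real.log ((A : ℝ) / (cap * (T + Fintype.card E)))
        ≤ (A : ℝ) / (cap * (T + Fintype.card E)) - 1 :=
      Real.log_le_sub_one_of_pos (by positivity)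
    have hsumc : ∑ e, (c i e : ℝ) = T := by exact_mod_cast hc i
    have e2 : (A : ℝ) = cap * (T + Fintype.card E) + ∑ e, ((c i e : ℝ) + 1) * w i e := by
      rw [hAR]
      have : ∀ e, ((c i e : ℝ) + 1) * (cap + w i e)
          = cap * (c i e : ℝ) + cap + ((c i e : ℝ) + 1) * w i e := fun e => by ring
      rw [Finset.sum_congr rfl fun e _ => this e, Finset.sum_add_distrib,
        Finset.sum_add_distrib, ← Finset.mul_sum, hsumc, Finset.sum_const,
        Finset.card_univ, nsmul_eq_mul]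
      ring
    have e3 : (A : ℝ) / (cap * (T + Fintype.card E)) - 1
        = 1 / cap * ((∑ e, ((c i e : ℝ) + 1) * w i e) / (T + Fintype.card E)) := by
      rw [e2]
      field_simp
      ring
    rw [e3] at h4
    refine h4.trans ?_
    have h5 : (∑ e, ((c i e : ℝ) + 1) * w i e) / (T + Fintype.card E)
        ≤ ∑ e, (c i e : ℝ) / T * w i e + cap * Fintype.card E / T := by
      have h6 : (∑ e, ((c i e : ℝ) + 1) * w i e) / (T + Fintype.card E)
          ≤ (∑ e, ((c i e : ℝ) + 1) * w i e) / T := by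
        apply div_le_div_of_nonneg_left
        · exact Finset.sum_nonneg fun e _ => by positivity
        · exact hT'
        · linarith
      refine h6.trans ?_
      have h7 : ∑ e, ((c i e : ℝ) + 1) * w i e
          ≤ ∑ e, (c i e : ℝ) * w i e + cap * Fintype.card E := by
        have : ∀ e, ((c i e : ℝ) + 1) * w i e ≤ (c i e : ℝ) * w i e + cap := by
          intro e
          have hwe : (w i e : ℝ) ≤ cap := by exact_mod_cast hw i e
          nlinarith
        refine (Finset.sum_le_sum fun e _ => this e).trans (le_of_eq ?_)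
        rw [Finset.sum_add_distrib, Finset.sum_const, Finset.card_univ, nsmul_eq_mul]
        ring
      have h8 : (∑ e, (c i e : ℝ) * w i e + cap * Fintype.card E) / T
          = ∑ e, (c i e : ℝ) / T * w i e + cap * Fintype.card E / T := by
        rw [add_div, Finset.sum_div]
        congr 1
        exact Finset.sum_congr rfl fun e _ => by ring
      rw [← h8]
      gcongr
    have h9 := mul_le_mul_of_nonneg_left h5 (by positivity : (0 : ℝ) ≤ 1 / cap)
    refine h9.trans (le_of_eq ?_)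
    field_simp
  have e4 : (1 : ℝ) / cap * w i (P i) = w i (P i) / cap := by ring
  rw [e4]
  linarith

end upd

/-! ### One round -/

/-- **One round of the integer machine.** -/
theorem int_round [DecidableEq E] {S Q cap y0 : ℕ} (hS : 0 < S) (hcap : 0 < cap) (h0 : 0 < y0)
    {y : ι → E → ℕ} (hy : Inv y0 Q y) {D D' : ι → E → ℕ} (hD : ∀ i e, D' i e ≤ D i e)
    {PP : Set (ι → E)} {T : ℕ} (hT : 0 < T)
    {p : ℕ → ι → E} (hmem : ∀ t, t < T → p t ∈ PP)
    (hmin : ∀ t, t < T → ∀ q ∈ PP,
      ∑ i, (LN S Q cap y D i (p t i) + cap * harmN S (cnt p t i (p t i)))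
        ≤ ∑ i, (LN S Q cap y D i (q i) + cap * harmN S (cnt p t i (q i))))
    {s : ℕ} (hs : 0 < s) (hsT : s ≤ T) (hm : 0 < Fintype.card E)
    (hQ : y0 * (2 * (T + Fintype.card E)) ≤ Q) {P : ι → E} (hP : P ∈ PP) :
    phi Q (upd Q cap (cnt p T) (wN cap D D')) P
      ≤ phi Q y P
        + 1 / cap * (∑ i, (D i (P i) : ℝ) - val (fun i e => (D' i e : ℝ)) (xx p T))
        - 2 / 3 * (1 / cap * ∑ i, (wN cap D D' i (P i) : ℝ))
        + Fintype.card ι * (err (Fintype.card E) T s (T / S) + 2 * Fintype.card E / T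
          + 2 / y0 + Q / S) := by
  have hc' : (0 : ℝ) < cap := by exact_mod_cast hcap
  have hT' : (0 : ℝ) < T := by exact_mod_cast hT
  have hQ0 : 0 < Q := lt_of_lt_of_le (by positivity) hQ
  have hcnt : ∀ i, ∑ e, cnt p T i e = T := by
    intro i
    have := sum_cnt_one p T i
    exact_mod_cast this
  have h1 := solv hS hcap h0 hy hT hmem hmin hs hsT hm hP
  have h2 := phi_upd (Q := Q) (cap := cap) (c := cnt p T) (w := wN cap D D') (T := T)
    hcap hm hQ0 hT (wN_le_cap cap D D') hcnt h0 hQ P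
  have h3 : ∑ i, ∑ e, (cnt p T i e : ℝ) / T * (wN cap D D' i e : ℝ)
      ≤ val (fun i e => (D i e : ℝ)) (xx p T) - val (fun i e => (D' i e : ℝ)) (xx p T) := by
    unfold val xx
    rw [← Finset.sum_sub_distrib]
    refine Finset.sum_le_sum fun i _ => ?_
    rw [← Finset.sum_sub_distrib]
    refine Finset.sum_le_sum fun e _ => ?_
    rw [← mul_sub]
    refine mul_le_mul_of_nonneg_left ?_ (by positivity)
    rw [← Nat.cast_sub (hD i e)]
    exact_mod_cast min_le_left _ _
  have h4 := mul_le_mul_of_nonneg_left h3 (by positivity : (0 : ℝ) ≤ 1 / cap)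
  have hM : (0 : ℝ) ≤ Fintype.card ι := by positivity
  have e5 : (Fintype.card ι : ℝ) * (err (Fintype.card E) T s (T / S) + 2 * Fintype.card E / T
          + 2 / y0 + Q / S)
      = Fintype.card ι * (err (Fintype.card E) T s (T / S) + Fintype.card E / T
          + 1 / y0 + Q / S) + Fintype.card ι * (Fintype.card E / T + 1 / y0) := by
    ring
  rw [e5]
  have e6 : (1 : ℝ) / cap * (∑ i, (D i (P i) : ℝ) - val (fun i e => (D' i e : ℝ)) (xx p T))
      = 1 / cap * (∑ i, (D i (P i) : ℝ) - val (fun i e => (D i e : ℝ)) (xx p T))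
        + 1 / cap * (val (fun i e => (D i e : ℝ)) (xx p T)
          - val (fun i e => (D' i e : ℝ)) (xx p T)) := by
    ring
  rw [e6]
  linarith

/-! ### Mixing at the end of an active block -/

section mix

variable {z Q y0 : ℕ} {y y1 : ι → E → ℕ}

omit [Fintype ι] in
theorem mix_inv (hz : 0 < z) (hy : Inv y0 Q y) (hy1 : Inv y0 Q y1) : Inv y0 Q (mix z y y1) where
  low := by
    intro i e
    unfold mix
    rw [Nat.le_div_iff_mul_le hz]
    obtain ⟨k, rfl⟩ : ∃ k, z = k + 1 := ⟨z - 1, by omega⟩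
    have h1 := hy.low i e
    have h2 := hy1.low i e
    simp only [Nat.add_sub_cancel]
    nlinarith [Nat.mul_le_mul_left k h2]
  sum := by
    intro i
    have h : (∑ e, mix z y y1 i e) * z ≤ Q * z := by
      rw [Finset.sum_mul]
      calc ∑ e, mix z y y1 i e * z ≤ ∑ e, ((z - 1) * y1 i e + y i e) :=
            Finset.sum_le_sum fun e _ => Nat.div_mul_le_self _ _
        _ = (z - 1) * ∑ e, y1 i e + ∑ e, y i e := by
            rw [Finset.sum_add_distrib, Finset.mul_sum]
        _ ≤ (z - 1) * Q + Q :=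
            Nat.add_le_add (Nat.mul_le_mul_left _ (hy1.sum i)) (hy.sum i)
        _ = Q * z := by
            obtain ⟨k, rfl⟩ : ∃ k, z = k + 1 := ⟨z - 1, by omega⟩
            simp only [Nat.add_sub_cancel]
            ring
    exact Nat.le_of_mul_le_mul_right h hz

theorem phi_mix_aux (hz : 0 < z) (h0 : 0 < y0) (hQ : 0 < Q) (hy : Inv y0 Q y)
    (hy1 : Inv y0 Q y1) (P : ι → E) {x : ι → ℝ} (hx : ∀ i, 0 < x i)
    (hle : ∀ i, x i * z ≤ ((z - 1 : ℕ) : ℝ) * y1 i (P i) + y i (P i)) :
    phi Q (mix z y y1) P ≤ ∑ i, Real.log ((Q : ℝ) / x i) + Fintype.card ι * (1 / y0) := by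
  have hz' : (0 : ℝ) < z := by exact_mod_cast hz
  have hcard : (Fintype.card ι : ℝ) * (1 / y0) = ∑ _i : ι, (1 / y0 : ℝ) := by
    rw [Finset.sum_const, Finset.card_univ, nsmul_eq_mul]
  unfold phi
  rw [hcard, ← Finset.sum_add_distrib]
  refine Finset.sum_le_sum fun i _ => ?_
  refine log_round (hx i) h0 ((mix_inv hz hy hy1).low i (P i)) ?_ hQ
  have h2 := Nat.lt_div_mul_add (a := (z - 1) * y1 i (P i) + y i (P i)) hz
  have h3 : (((z - 1) * y1 i (P i) + y i (P i) : ℕ) : ℝ)
      < ((((z - 1) * y1 i (P i) + y i (P i)) / z * z + z : ℕ) : ℝ) := by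
    exact_mod_cast h2
  push_cast [Nat.cast_add] at h3
  have h4 := hle i
  have h5 : x i * z ≤ (((mix z y y1 i (P i) : ℕ) : ℝ) + 1) * z := by
    have h6 : (((z - 1 : ℕ) : ℝ) * y1 i (P i) + y i (P i) : ℝ)
        ≤ ((((z - 1) * y1 i (P i) + y i (P i)) / z : ℕ) : ℝ) * z + z := by
      have := h2.le
      exact_mod_cast this
    unfold mix
    nlinarith
  exact le_of_mul_le_mul_right h5 hz'

/-- Mixing: comparison with the state at the end of the block. -/
theorem phi_mix_end (hz : 2 ≤ z) (h0 : 0 < y0) (hQ : 0 < Q) (hy : Inv y0 Q y)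
    (hy1 : Inv y0 Q y1) (P : ι → E) :
    phi Q (mix z y y1) P
      ≤ phi Q y1 P + Fintype.card ι * (Real.log (z / (z - 1)) + 1 / y0) := by
  have hz0 : (0 : ℝ) < z := by positivity
  have hz1 : (0 : ℝ) < (z : ℝ) - 1 := by
    have : (2 : ℝ) ≤ z := by exact_mod_cast hz
    linarith
  have hc : ((z - 1 : ℕ) : ℝ) = (z : ℝ) - 1 := by
    rw [Nat.cast_sub (by omega)]; simp
  have hy1p : ∀ i, (0 : ℝ) < y1 i (P i) := fun i => by
    exact_mod_cast lt_of_lt_of_le h0 (hy1.low i (P i))
  have h := phi_mix_aux (z := z) (show 0 < z by omega) h0 hQ hy hy1 P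
    (x := fun i => ((z : ℝ) - 1) / z * y1 i (P i)) (fun i => by have := hy1p i; positivity)
    (fun i => by
      rw [hc]
      have e1 : ((z : ℝ) - 1) / z * y1 i (P i) * z = ((z : ℝ) - 1) * y1 i (P i) := by
        field_simp
      rw [e1]
      have : (0 : ℝ) ≤ y i (P i) := by positivity
      linarith)
  refine h.trans (le_of_eq ?_)
  have hQ' : (0 : ℝ) < Q := by exact_mod_cast hQ
  have e2 : ∀ i, Real.log ((Q : ℝ) / (((z : ℝ) - 1) / z * y1 i (P i)))
      = Real.log ((Q : ℝ) / y1 i (P i)) + Real.log (z / (z - 1)) := by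
    intro i
    have := hy1p i
    rw [← Real.log_mul (by positivity) (by positivity)]
    congr 1
    field_simp
  rw [Finset.sum_congr rfl fun i _ => e2 i, Finset.sum_add_distrib, Finset.sum_const,
    Finset.card_univ, nsmul_eq_mul]
  unfold phi
  ring

/-- Mixing: comparison with the state at the beginning of the block. -/
theorem phi_mix_start (hz : 0 < z) (h0 : 0 < y0) (hQ : 0 < Q) (hy : Inv y0 Q y)
    (hy1 : Inv y0 Q y1) (P : ι → E) :
    phi Q (mix z y y1) P ≤ phi Q y P + Fintype.card ι * (Real.log z + 1 / y0) := by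
  have hz0 : (0 : ℝ) < z := by exact_mod_cast hz
  have hyp : ∀ i, (0 : ℝ) < y i (P i) := fun i => by
    exact_mod_cast lt_of_lt_of_le h0 (hy.low i (P i))
  have h := phi_mix_aux (z := z) hz h0 hQ hy hy1 P
    (x := fun i => (y i (P i) : ℝ) / z) (fun i => by have := hyp i; positivity)
    (fun i => by
      have e1 : (y i (P i) : ℝ) / z * z = y i (P i) := by field_simp
      rw [e1]
      have : (0 : ℝ) ≤ ((z - 1 : ℕ) : ℝ) * y1 i (P i) := by positivity
      linarith)
  refine h.trans (le_of_eq ?_)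
  have hQ' : (0 : ℝ) < Q := by exact_mod_cast hQ
  have e2 : ∀ i, Real.log ((Q : ℝ) / ((y i (P i) : ℝ) / z))
      = Real.log ((Q : ℝ) / y i (P i)) + Real.log z := by
    intro i
    have := hyp i
    rw [← Real.log_mul (by positivity) (by positivity)]
    congr 1
    field_simp
  rw [Finset.sum_congr rfl fun i _ => e2 i, Finset.sum_add_distrib, Finset.sum_const,
    Finset.card_univ, nsmul_eq_mul]
  unfold phi
  ring

end mix

end

end Vale.Agent.P315.H782
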