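import Vale.Agent.P315.H782.IntRound

/-!
# The integer machine with block restart

The same statement as `H330.Run.regret`, for the literal integer tables of `IntRound`.
-/

namespace Vale.Agent.P315.H782

open Finset

noncomputable section

variable {ι E : Type*} [Fintype ι] [Fintype E] [DecidableEq E]

/-- Error of one round, per row. -/
def errR (m T s S Q y0 : ℕ) : ℝ :=
  err m T s (T / S) + 2 * m / T + 2 / y0 + Q / S

/-- Size conditions of the integer machine. -/
structure Sizes (m T s S Q y0 : ℕ) : Prop where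
  hm : 0 < m
  hT : 0 < T
  hs : 0 < s
  hsT : s ≤ T
  hS : 0 < S
  h0 : 0 < y0
  hQ : y0 * (2 * (T + m)) ≤ Q

/-- A run of the integer machine: blocks of `r` rounds, `Y j k` = state in block `j` before round
`k`, `D (j * r + k)` = curves seen in that round, `p j k` = the greedy paths of that round. -/
structure IRun (PP : Set (ι → E)) (S Q cap y0 z T s r : ℕ) (act : ℕ → Prop)
    (D : ℕ → ι → E → ℕ) (Y : ℕ → ℕ → ι → E → ℕ) (p : ℕ → ℕ → ℕ → ι → E) : Prop where
  sizes : Sizes (Fintype.card E) T s S Q y0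
  cap_pos : 0 < cap
  z_two : 2 ≤ z
  anti : ∀ t i e, D (t + 1) i e ≤ D t i e
  mem : ∀ j k, k < r → ∀ t, t < T → p j k t ∈ PP
  min : ∀ j k, k < r → ∀ t, t < T → ∀ q ∈ PP,
    ∑ i, (LN S Q cap (Y j k) (D (j * r + k)) i (p j k t i)
        + cap * harmN S (cnt (p j k) t i (p j k t i)))
      ≤ ∑ i, (LN S Q cap (Y j k) (D (j * r + k)) i (q i)
        + cap * harmN S (cnt (p j k) t i (q i)))
  step : ∀ j k, k < r →
    Y j (k + 1) = upd Q cap (cnt (p j k) T) (wN cap (D (j * r + k)) (D (j * r + k + 1)))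
  start : Inv y0 Q (Y 0 0)
  next_act : ∀ j, act j → Y (j + 1) 0 = mix z (Y j 0) (Y j r)
  next_not : ∀ j, ¬ act j → Y (j + 1) 0 = Y j 0

namespace IRun

variable {PP : Set (ι → E)} {S Q cap y0 z T s r : ℕ} {act : ℕ → Prop}
  {D : ℕ → ι → E → ℕ} {Y : ℕ → ℕ → ι → E → ℕ} {p : ℕ → ℕ → ℕ → ι → E}

theorem inBlock (h : IRun PP S Q cap y0 z T s r act D Y p) (j : ℕ) (h0 : Inv y0 Q (Y j 0)) :
    ∀ k, k ≤ r → Inv y0 Q (Y j k) := by
  intro k
  cases k with
  | zero => intro _; exact h0
  | succ k =>
    intro hk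
    rw [h.step j k (by omega)]
    refine upd_inv h.cap_pos h.sizes.hm (wN_le_cap _ _ _) (T := T) ?_ h.sizes.hQ
    intro i
    have := sum_cnt_one (p j k) T i
    exact_mod_cast this

theorem good (h : IRun PP S Q cap y0 z T s r act D Y p) : ∀ j, Inv y0 Q (Y j 0) := by
  intro j
  induction j with
  | zero => exact h.start
  | succ j ih =>
    by_cases ha : act j
    · rw [h.next_act j ha]
      exact mix_inv (by have := h.z_two; omega) ih (h.inBlock j ih r le_rfl)
    · rw [h.next_not j ha]
      exact ih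

/-- Inside one block. -/
theorem block (h : IRun PP S Q cap y0 z T s r act D Y p) {P : ι → E} (hP : P ∈ PP) (j : ℕ) :
    ∀ k, k ≤ r → phi Q (Y j k) P
        + 2 / 3 * (1 / cap * ∑ t ∈ range k, ∑ i,
            (wN cap (D (j * r + t)) (D (j * r + t + 1)) i (P i) : ℝ)) ≤
      phi Q (Y j 0) P + 1 / cap * ∑ t ∈ range k, (∑ i, (D (j * r + t) i (P i) : ℝ)
        - val (fun i e => (D (j * r + t + 1) i e : ℝ)) (xx (p j t) T))
        + (k : ℝ) * (Fintype.card ι * errR (Fintype.card E) T s S Q y0) := by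
  intro k
  induction k with
  | zero => intro _; simp
  | succ k ih =>
    intro hk
    have h1 := ih (by omega)
    have hk' : k < r := by omega
    have hI := h.inBlock j (h.good j) k (by omega)
    have h2 := int_round h.sizes.hS h.cap_pos h.sizes.h0 hI (h.anti (j * r + k)) h.sizes.hT
      (h.mem j k hk') (h.min j k hk') h.sizes.hs h.sizes.hsT h.sizes.hm h.sizes.hQ hP
    rw [← h.step j k hk'] at h2
    have e0 : err (Fintype.card E) T s (T / S) + 2 * Fintype.card E / T + 2 / y0 + Q / S
        = errR (Fintype.card E) T s S Q y0 := rfl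
    rw [e0] at h2
    rw [Finset.sum_range_succ, Finset.sum_range_succ]
    push_cast
    rw [mul_add, mul_add, mul_add]
    linarith

/-- **Online lemma with block restart, integer tables.** -/
theorem regret [DecidablePred act] (h : IRun PP S Q cap y0 z T s r act D Y p) {P : ι → E}
    (hP : P ∈ PP) (N : ℕ) (A : ℕ → Prop) [DecidablePred A] (hA : ∀ j, A j → act j) :
    2 / 3 * ∑ j ∈ (range N).filter A,
        ∑ t ∈ range r, ∑ i, (wN cap (D (j * r + t)) (D (j * r + t + 1)) i (P i) : ℝ) ≤
      ∑ j ∈ (range N).filter A, ∑ t ∈ range r,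
        (∑ i, (D (j * r + t) i (P i) : ℝ)
          - val (fun i e => (D (j * r + t + 1) i e : ℝ)) (xx (p j t) T))
      + cap * (phi Q (Y 0 0) P
        + (((range N).filter A).card : ℝ)
            * (Fintype.card ι * (Real.log (z / (z - 1)) + 1 / y0))
        + (((range N).filter (fun j => act j ∧ ¬ A j)).card : ℝ)
            * (Fintype.card ι * (Real.log z + 1 / y0))
        + (((range N).filter A).card : ℝ)
            * ((r : ℝ) * (Fintype.card ι * errR (Fintype.card E) T s S Q y0))) := by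
  have hc : (0 : ℝ) < cap := by exact_mod_cast h.cap_pos
  have hz0 : 0 < z := by have := h.z_two; omega
  have hQ0 : 0 < Q := by
    have h1 := h.sizes.hQ
    have h2 := h.sizes.h0
    have h3 := h.sizes.hT
    exact lt_of_lt_of_le (by positivity) h1
  set eI : ℝ := Fintype.card ι * (Real.log (z / (z - 1)) + 1 / y0) with heI
  set eJ : ℝ := Fintype.card ι * (Real.log z + 1 / y0) with heJ
  set eR : ℝ := Fintype.card ι * errR (Fintype.card E) T s S Q y0 with heR
  have key : ∀ N : ℕ, phi Q (Y N 0) P + 2 / 3 * (1 / cap * ∑ j ∈ (range N).filter A,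
        ∑ t ∈ range r, ∑ i, (wN cap (D (j * r + t)) (D (j * r + t + 1)) i (P i) : ℝ)) ≤
      phi Q (Y 0 0) P + 1 / cap * ∑ j ∈ (range N).filter A, ∑ t ∈ range r,
        (∑ i, (D (j * r + t) i (P i) : ℝ)
          - val (fun i e => (D (j * r + t + 1) i e : ℝ)) (xx (p j t) T))
        + (((range N).filter A).card : ℝ) * eI
        + (((range N).filter (fun j => act j ∧ ¬ A j)).card : ℝ) * eJ
        + (((range N).filter A).card : ℝ) * ((r : ℝ) * eR) := by
    intro N
    induction N with
    | zero => simp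
    | succ N ih =>
      rw [Finset.range_add_one, Finset.filter_insert, Finset.filter_insert]
      have hn1 : N ∉ (range N).filter A := by simp
      have hn2 : N ∉ (range N).filter (fun j => act j ∧ ¬ A j) := by simp
      have hy := h.good N
      by_cases hAN : A N
      · have ha := hA N hAN
        have hnot : ¬ (act N ∧ ¬ A N) := fun hh => hh.2 hAN
        rw [if_pos hAN, if_neg hnot]
        rw [Finset.sum_insert hn1, Finset.sum_insert hn1, Finset.card_insert_of_notMem hn1]
        have hr := h.inBlock N hy r le_rfl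
        have hb := h.block hP N r le_rfl
        rw [← heR] at hb
        have hm : phi Q (Y (N + 1) 0) P ≤ phi Q (Y N r) P + eI := by
          rw [h.next_act N ha]
          exact phi_mix_end h.z_two h.sizes.h0 hQ0 hy hr P
        push_cast
        rw [mul_add (1 / (cap : ℝ)), mul_add (1 / (cap : ℝ))]
        nlinarith [ih, hb, hm]
      · rw [if_neg hAN]
        by_cases ha : act N
        · rw [if_pos (⟨ha, hAN⟩ : act N ∧ ¬ A N), Finset.card_insert_of_notMem hn2]
          have hr := h.inBlock N hy r le_rfl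
          have hm : phi Q (Y (N + 1) 0) P ≤ phi Q (Y N 0) P + eJ := by
            rw [h.next_act N ha]
            exact phi_mix_start hz0 h.sizes.h0 hQ0 hy hr P
          push_cast
          nlinarith [ih, hm]
        · have hnot : ¬ (act N ∧ ¬ A N) := fun hh => ha hh.1
          rw [if_neg hnot, h.next_not N ha]
          exact ih
  have hk := key N
  have hpos := phi_nonneg (h.good N) h.sizes.h0 P
  have h2 : 2 / 3 * (1 / cap * ∑ j ∈ (range N).filter A,
        ∑ t ∈ range r, ∑ i, (wN cap (D (j * r + t)) (D (j * r + t + 1)) i (P i) : ℝ)) ≤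
      phi Q (Y 0 0) P + 1 / cap * ∑ j ∈ (range N).filter A, ∑ t ∈ range r,
        (∑ i, (D (j * r + t) i (P i) : ℝ)
          - val (fun i e => (D (j * r + t + 1) i e : ℝ)) (xx (p j t) T))
        + (((range N).filter A).card : ℝ) * eI
        + (((range N).filter (fun j => act j ∧ ¬ A j)).card : ℝ) * eJ
        + (((range N).filter A).card : ℝ) * ((r : ℝ) * eR) := by linarith
  have h3 := mul_le_mul_of_nonneg_left h2 hc.le
  have e1 : ∀ x : ℝ, (cap : ℝ) * (2 / 3 * (1 / cap * x)) = 2 / 3 * x := by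
    intro x; field_simp
  have e2 : ∀ x : ℝ, (cap : ℝ) * (1 / cap * x) = x := by
    intro x; field_simp
  rw [e1] at h3
  rw [mul_add, mul_add, mul_add, mul_add, e2] at h3
  rw [mul_add, mul_add, mul_add]
  linarith

end IRun

/-! ### Explicit parameters

`T = m R²`, `s = m R`, `y0 = R`, `Q = 4 m R³`, `S = Q R`; the error of a round is
`O((1 + log R) / R)` per row. -/

theorem sizes_explicit {m R : ℕ} (hm : 0 < m) (hR : 0 < R) :
    Sizes m (m * R ^ 2) (m * R) (4 * m * R ^ 3 * R) (4 * m * R ^ 3) R where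
  hm := hm
  hT := by positivity
  hs := by positivity
  hsT := by
    have : R ≤ R ^ 2 := by nlinarith
    exact Nat.mul_le_mul_left _ this
  hS := by positivity
  h0 := hR
  hQ := by
    have h1 : m ≤ m * R ^ 2 := Nat.le_mul_of_pos_right _ (by positivity)
    calc R * (2 * (m * R ^ 2 + m)) ≤ R * (2 * (m * R ^ 2 + m * R ^ 2)) := by gcongr
      _ = 4 * m * R ^ 3 := by ring

theorem errR_explicit {m R : ℕ} (hm : 0 < m) (hR : 0 < R) :
    errR m (m * R ^ 2) (m * R) (4 * m * R ^ 3 * R) (4 * m * R ^ 3) R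
      ≤ (8 + 2 * Real.log R) / R := by
  have hR' : (0 : ℝ) < R := by exact_mod_cast hR
  have hR1 : (1 : ℝ) ≤ R := by exact_mod_cast hR
  have hm' : (0 : ℝ) < m := by exact_mod_cast hm
  unfold errR err
  push_cast
  have e1 : (m : ℝ) * R ^ 2 / m = (R : ℝ) ^ 2 := by field_simp
  have e2 : Real.log ((R : ℝ) ^ 2) = 2 * Real.log R := by
    rw [Real.log_pow]; norm_num
  rw [e1, e2]
  have e3 : ((m : ℝ) * (1 + 2 * Real.log R) + ((m : ℝ) * R - m) ^ 2 / (m * R ^ 2)
      + m * R ^ 2 / (4 * m * R ^ 3 * R) * (m * R ^ 2)) / (m * R)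
      = (1 + 2 * Real.log R) / R + (((R : ℝ) - 1) / R) ^ 2 / R + 1 / (4 * R) := by
    field_simp
  have e4 : (2 : ℝ) * m / (m * R ^ 2) = 2 / R * (1 / R) := by
    field_simp
  have e5 : (4 : ℝ) * m * R ^ 3 / (4 * m * R ^ 3 * R) = 1 / R := by
    field_simp
  rw [e3, e4, e5]
  have h1 : (((R : ℝ) - 1) / R) ^ 2 ≤ 1 := by
    have h2 : ((R : ℝ) - 1) / R ≤ 1 := by
      rw [div_le_one hR']; linarith
    have h3 : 0 ≤ ((R : ℝ) - 1) / R := div_nonneg (by linarith) hR'.le
    nlinarith
  have h4 : (((R : ℝ) - 1) / R) ^ 2 / R ≤ 1 / R := by gcongr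
  have h5 : (1 : ℝ) / R ≤ 1 := by
    rw [div_le_one hR']; exact hR1
  have h6 : (2 : ℝ) / R * (1 / R) ≤ 2 / R * 1 := by gcongr
  have h7 : (1 : ℝ) / (4 * R) ≤ 1 / R := by
    apply one_div_le_one_div_of_le hR'
    linarith
  have e8 : (8 + 2 * Real.log R) / (R : ℝ)
      = (1 + 2 * Real.log R) / R + 1 / R + 1 / R + 2 / R * 1 + 2 / R + 1 / R := by
    field_simp
    ring
  rw [e8]
  linarith

omit [Fintype ι] [DecidableEq E] in
/-- The uniform start `Q / m = 4 R ^ 3`. -/
theorem inv_start {m R : ℕ} (hm : Fintype.card E = m) (hR : 0 < R) :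
    Inv (ι := ι) (E := E) R (4 * m * R ^ 3) (fun _ _ => 4 * R ^ 3) where
  low := by
    intro i e
    have h1 : R ≤ R ^ 3 := by
      calc R = R ^ 1 := (pow_one R).symm
        _ ≤ R ^ 3 := Nat.pow_le_pow_right hR (by norm_num)
    show R ≤ 4 * R ^ 3
    omega
  sum := by
    intro i
    rw [Finset.sum_const, Finset.card_univ, hm, smul_eq_mul]
    exact le_of_eq (by ring)

omit [Fintype E] [DecidableEq E] in
theorem phi_start {m R : ℕ} (hR : 0 < R) (P : ι → E) :
    phi (4 * m * R ^ 3) (fun _ _ => 4 * R ^ 3) P = Fintype.card ι * Real.log m := by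
  unfold phi
  have hR' : (0 : ℝ) < R := by exact_mod_cast hR
  have : ∀ i : ι, Real.log (((4 * m * R ^ 3 : ℕ) : ℝ) / ((4 * R ^ 3 : ℕ) : ℝ)) = Real.log m := by
    intro i
    congr 1
    push_cast
    field_simp
  rw [Finset.sum_congr rfl fun i _ => this i, Finset.sum_const, Finset.card_univ, nsmul_eq_mul]

end

end Vale.Agent.P315.H782
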